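import Vale.Agent.P105.Main

open Real Finset MeasureTheory Polynomial

namespace Vale.Agent.P105

variable {lam ϑ : ℝ} {a e : ℤ}

theorem cheb {y y' : ℝ} (hs : y + y' = a) (hp : y * y' = e) (A B : ℕ → ℝ) (A0 : A 0 = 2)
    (B0 : B 0 = 2) (A1 : A 1 = y) (B1 : B 1 = y') (hA : ∀ n, A (n + 2) = y * A (n + 1) - A n)
    (hB : ∀ n, B (n + 2) = y' * B (n + 1) - B n) (n : ℕ) :
    ∃ p q : ℤ, A n = p + q * y ∧ B n = p + q * y' := by
  induction n using Nat.twoStepInduction with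
  | zero => exact ⟨2, 0, by simp [A0], by simp [B0]⟩
  | one => exact ⟨0, 1, by simp [A1], by simp [B1]⟩
  | more n h1 h2 =>
    obtain ⟨p, q, h3, h4⟩ := h1
    obtain ⟨p', q', h5, h6⟩ := h2
    refine ⟨-(q' * e) - p, p' + q' * a - q, ?_, ?_⟩
    · rw [hA, h3, h5]; push_cast; rw [← hs, ← hp]; ring
    · rw [hB, h4, h6]; push_cast; rw [← hs, ← hp]; ring

theorem cheb' (h0 : 0 < lam) (hs : lam + lam⁻¹ + 2 * cos (2 * π * ϑ) = a)
    (hp : (lam + lam⁻¹) * (2 * cos (2 * π * ϑ)) = e) (n : ℕ) :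
    ∃ p q : ℤ, lam ^ n + lam⁻¹ ^ n = p + q * (lam + lam⁻¹) ∧
      2 * cos (2 * π * (n * ϑ)) = p + q * (2 * cos (2 * π * ϑ)) := by
  refine cheb hs hp (fun n => lam ^ n + lam⁻¹ ^ n) (fun n => 2 * cos (2 * π * (n * ϑ)))
    (by norm_num) (by simp) (by simp) (by simp) (fun n => ?_) (fun n => ?_) n
  · simp only [pow_succ]; field_simp; ring
  · push_cast
    rw [show 2 * π * ((n + 2) * ϑ) = 2 * π * ((n + 1) * ϑ) + 2 * π * ϑ by ring,
      show 2 * π * (n * ϑ) = 2 * π * ((n + 1) * ϑ) - 2 * π * ϑ by ring, cos_add, cos_sub]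
    ring

theorem trace_int (h0 : 0 < lam) (hs : lam + lam⁻¹ + 2 * cos (2 * π * ϑ) = a)
    (hp : (lam + lam⁻¹) * (2 * cos (2 * π * ϑ)) = e) (i : ℤ) :
    ∃ n : ℤ, lam ^ (-i) + lam ^ i + 2 * cos (2 * π * (i * ϑ)) = n := by
  obtain ⟨p, q, h1, h2⟩ := cheb' h0 hs hp i.natAbs
  refine ⟨2 * p + q * a, ?_⟩
  have : lam ^ (-i) + lam ^ i + 2 * cos (2 * π * (i * ϑ))
      = lam ^ i.natAbs + lam⁻¹ ^ i.natAbs + 2 * cos (2 * π * (i.natAbs * ϑ)) := by
    obtain ⟨n, rfl | rfl⟩ := i.eq_nat_or_neg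
    · simp [add_comm]
    · simp
  rw [this, h1, h2]; push_cast; rw [← hs]; ring

theorem irr_theta (h0 : 0 < lam) (h1 : lam < 1) (hs : lam + lam⁻¹ + 2 * cos (2 * π * ϑ) = a)
    (hp : (lam + lam⁻¹) * (2 * cos (2 * π * ϑ)) = e) (hi : Irrational (2 * cos (2 * π * ϑ))) :
    Irrational ϑ := by
  rintro ⟨r, hr⟩
  obtain ⟨p, q, h2, h3⟩ := cheb' h0 hs hp r.den
  have h4 : (r.den : ℝ) * ϑ = r.num := by
    rw [← hr]; exact_mod_cast Rat.den_mul_eq_num r
  rw [h4, mul_comm (2 * π), cos_int_mul_two_pi] at h3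
  have hq : q = 0 := by
    by_contra hq
    exact ((hi.intCast_mul hq).intCast_add p).ne_int 2 (by rw [← h3]; simp)
  rw [hq, Int.cast_zero, zero_mul, add_zero] at h2 h3
  have h5 : lam ^ r.den < 1 := pow_lt_one₀ h0.le h1 r.den_nz
  have h6 := pow_pos h0 r.den
  rw [inv_pow, ← h3] at h2
  field_simp at h2
  nlinarith

theorem cos_ne {x : ℝ} (hx : IsIntegral ℤ x) : 0 < |cos (π * x)| := by
  rw [abs_pos, cos_ne_zero_iff]
  intro k hk
  have h1 : x = algebraMap ℚ ℝ ((2 * k + 1) / 2) := by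
    apply mul_left_cancel₀ pi_ne_zero
    rw [hk]; simp; ring
  rw [h1, isIntegral_algebraMap_iff (algebraMap ℚ ℝ).injective,
    IsIntegrallyClosed.isIntegral_iff] at hx
  obtain ⟨m, hm⟩ := hx
  have h2 : (2 * m : ℚ) = 2 * k + 1 := by rw [eq_intCast] at hm; rw [hm]; ring
  have h3 : 2 * m = 2 * k + 1 := by exact_mod_cast h2
  omega

theorem integral_of {x : ℝ} (h : x ^ 4 - a * x ^ 3 + (e + 2) * x ^ 2 - a * x + 1 = 0) :
    IsIntegral ℤ x := by
  refine ⟨X ^ 4 - C a * X ^ 3 + C (e + 2) * X ^ 2 - C a * X + 1, by monicity!, ?_⟩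
  rw [← aeval_def]
  simpa [map_ofNat] using h

theorem sing_param (h0 : 0 < lam) (h1 : lam < 1) (hs : lam + lam⁻¹ + 2 * cos (2 * π * ϑ) = a)
    (hp : (lam + lam⁻¹) * (2 * cos (2 * π * ϑ)) = e) (hi : Irrational (2 * cos (2 * π * ϑ))) :
    IsSingular (bern lam) := by
  have hϑ := irr_theta h0 h1 hs hp hi
  have i1 : IsIntegral ℤ lam := integral_of (a := a) (e := e) (by
    rw [← hs, ← hp]; field_simp; ring)
  have i2 : IsIntegral ℤ lam⁻¹ := integral_of (a := a) (e := e) (by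
    rw [← hs, ← hp]; field_simp; ring)
  have i3 : ∀ i : ℤ, IsIntegral ℤ (lam ^ i) := fun i => by
    obtain ⟨n, rfl | rfl⟩ := i.eq_nat_or_neg
    · simpa using i1.pow n
    · simpa using i2.pow n
  obtain ⟨B, hB⟩ := exists_pow_lt_of_lt_one (by linarith : 0 < (1 - lam) / 8) h1
  have hv : ∀ i : ℤ, vv lam (lam ^ B) i = lam ^ (-(i - B)) := fun i => by
    rw [vv, ← zpow_natCast, ← zpow_add₀ h0.ne']; congr 1; ring
  have S : St lam ϑ (lam ^ B) 1 (al ϑ (-B)) B := by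
    refine ⟨fun i => ?_, abs_one, pow_pos h0 B, hB.le, ?_⟩
    · obtain ⟨n, hn⟩ := trace_int h0 hs hp (i - B)
      refine ⟨n, ?_⟩
      rw [← hn, hv, hv, ← al_add, al, mul_comm Complex.I, Complex.exp_ofReal_mul_I_re, one_mul]
      congr 3
      · ring
      · push_cast; ring
    · rw [hv]
      exact one_le_zpow_of_nonpos₀ h0 h1.le (by omega)
  obtain ⟨ε, hε, far⟩ := irr_far hϑ B
  have t0 : 0 < min (1 / 2000) ε := by positivity
  have t1 : min (1 / 2000) ε ≤ 1 / 2000 := min_le_left _ _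
  have t2 : min (1 / 2000) ε ≤ ε := min_le_right _ _
  obtain ⟨q, p, hq, -, hd, -⟩ := dioph hϑ t0 t1
  refine (S.step h0 h1 (far q hq p (hd.trans (by nlinarith)))).sing hϑ h0 h1 ?_ fun i => ?_
  · rw [norm_mul, norm_al, one_mul]
    refine (al_near q p).trans ?_
    nlinarith
  · exact cos_ne (((i1.pow B).mul (isIntegral_one.sub (i1.pow _))).mul (i3 _))

theorem indep4 {K : Type} [Field K] [Algebra ℚ K] {w : K} (hw : (minpoly ℚ w).natDegree = 4)
    {r3 r2 r1 r0 : ℚ} (h : (r3 : K) * w ^ 3 + r2 * w ^ 2 + r1 * w + r0 = 0) :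
    r3 = 0 ∧ r2 = 0 ∧ r1 = 0 ∧ r0 = 0 := by
  have h1 : (⟨r3, r2, r1, r0⟩ : Cubic ℚ).toPoly = 0 := by
    refine eq_zero_of_dvd_of_natDegree_lt (minpoly.dvd ℚ w ?_) ?_
    · simpa [Cubic.toPoly] using h
    · rw [hw]; exact Nat.lt_succ_of_le natDegree_cubic_le
  rw [Cubic.toPoly_eq_zero_iff] at h1
  exact ⟨congrArg Cubic.a h1, congrArg Cubic.b h1, congrArg Cubic.c h1, congrArg Cubic.d h1⟩

theorem sing_salem (h0 : 0 < lam) (h1 : lam < 1) (hS : IsSalem lam⁻¹)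
    (h4 : (minpoly ℚ lam⁻¹).natDegree = 4) : IsSingular (bern lam) := by
  obtain ⟨hb, hint, -, w, hw, hw1⟩ := hS
  set β := lam⁻¹ with hβ
  have hQ : IsIntegral ℚ β := hint.tower_top
  have hm : minpoly ℚ β = minpoly ℚ w :=
    minpoly.eq_of_irreducible_of_monic (minpoly.irreducible hQ) hw (minpoly.monic hQ)
  have hc : ∀ i, ∃ c : ℤ, (minpoly ℚ β).coeff i = c := fun i => by
    rw [minpoly.isIntegrallyClosed_eq_field_fractions' ℚ hint, coeff_map]
    exact ⟨_, rfl⟩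
  obtain ⟨c0, h0'⟩ := hc 0
  obtain ⟨c1, h1'⟩ := hc 1
  obtain ⟨c2, h2'⟩ := hc 2
  obtain ⟨c3, h3'⟩ := hc 3
  have h4' : (minpoly ℚ β).coeff 4 = 1 := by rw [← h4]; exact minpoly.monic hQ
  have eβ : β ^ 4 + c3 * β ^ 3 + c2 * β ^ 2 + c1 * β + c0 = 0 := by
    have := minpoly.aeval ℚ β
    rw [aeval_eq_sum_range, h4] at this
    simp [Finset.sum_range_succ, h0', h1', h2', h3', h4', Algebra.smul_def] at this
    linarith
  have ew : w ^ 4 + c3 * w ^ 3 + c2 * w ^ 2 + c1 * w + c0 = 0 := by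
    rw [aeval_eq_sum_range, h4] at hw
    simp [Finset.sum_range_succ, h0', h1', h2', h3', h4', Algebra.smul_def] at hw
    linear_combination hw
  have hw0 : w ≠ 0 := by rintro rfl; simp at hw1
  have hcj : (starRingEnd ℂ) w = w⁻¹ := by
    rw [Complex.inv_def, Complex.normSq_eq_norm_sq, hw1]; simp
  have ew' := congrArg (starRingEnd ℂ) ew
  simp only [map_add, map_mul, map_pow, map_intCast, map_zero, hcj] at ew'
  field_simp at ew'
  obtain ⟨k3, k2, k1, k0⟩ := indep4 (hm ▸ h4) (r3 := c1 - c0 * c3) (r2 := c2 - c0 * c2)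
    (r1 := c3 - c0 * c1) (r0 := 1 - c0 * c0) (by push_cast; linear_combination ew' - c0 * ew)
  have k0' : c0 * c0 = 1 := by exact_mod_cast (by linarith : (c0 : ℚ) * c0 = 1)
  have k2' : c2 = c0 * c2 := by exact_mod_cast (by linarith : (c2 : ℚ) = c0 * c2)
  have k3' : c1 = c0 * c3 := by exact_mod_cast (by linarith : (c1 : ℚ) = c0 * c3)
  have quad : ∀ r : ℚ, β ^ 2 + r * β + 1 ≠ 0 := fun r hr =>
    one_ne_zero (indep4 h4 (r3 := 0) (r2 := 1) (r1 := r) (r0 := 1) (by simpa using hr)).2.1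
  rcases Int.eq_one_or_neg_one_of_mul_eq_one k0' with rfl | rfl
  swap
  · obtain rfl : c2 = 0 := by omega
    obtain rfl : c1 = -c3 := by omega
    refine absurd ?_ (quad c3)
    have : β ^ 2 - 1 ≠ 0 := by nlinarith
    apply mul_left_cancel₀ this
    push_cast at eβ ⊢
    linear_combination eβ
  obtain rfl : c1 = c3 := by omega
  have hβ0 : β ≠ 0 := by positivity
  have hl : lam = β⁻¹ := by rw [hβ, inv_inv]
  have ecos : 2 * cos (2 * π * (Complex.arg w / (2 * π))) = 2 * w.re := by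
    rw [mul_div_cancel₀ _ (by positivity), Complex.cos_arg hw0, hw1, div_one]
  have ey : (lam + β) ^ 2 + c1 * (lam + β) + (c2 - 2) = 0 := by
    rw [hl]; field_simp; push_cast at eβ; linear_combination eβ
  have ey' : (2 * w.re) ^ 2 + c1 * (2 * w.re) + (c2 - 2) = 0 := by
    have : ((2 * w.re : ℝ) : ℂ) = w + w⁻¹ := by rw [← hcj, Complex.add_conj]
    apply Complex.ofReal_injective
    push_cast at this ew ⊢
    rw [this]; field_simp; linear_combination ew
  have hlt : 2 * w.re < lam + β := by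
    have := (Complex.re_le_norm w).trans_eq hw1
    have h2 : 2 < lam + β := by
      rw [hl, ← sub_pos]
      have : β⁻¹ + β - 2 = (β - 1) ^ 2 / β := by field_simp; ring
      rw [this]
      have : 0 < β - 1 := by linarith
      positivity
    linarith
  have hs : lam + β + 2 * w.re = (-c1 : ℤ) := by
    apply mul_left_cancel₀ (sub_pos.2 hlt).ne'
    push_cast; linear_combination ey - ey'
  refine sing_param (ϑ := Complex.arg w / (2 * π)) (a := -c1) (e := c2 - 2) h0 h1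
    (by rw [ecos]; exact hs) ?_ ?_
  · rw [ecos]
    push_cast at hs ⊢
    linear_combination (lam + β) * hs - ey
  · rw [ecos]
    rintro ⟨r, hr⟩
    refine quad (c1 + r) ?_
    push_cast at hs ⊢
    rw [hr, hl] at *
    field_simp at hs
    linear_combination hs

end Vale.Agent.P105
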