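import Vale.Agent.P105.Defs

open MeasureTheory ProbabilityTheory Filter Topology Real Finset
open scoped ENNReal

namespace Vale.Agent.P105

theorem coin_prob : IsProbabilityMeasure coin := ⟨by
  simp [coin, ENNReal.inv_two_add_inv_two]⟩

/-- the product measure -/
noncomputable def PP : Measure (ℕ → Bool) := Measure.infinitePi fun _ : ℕ => coin

theorem PP_prob : IsProbabilityMeasure PP := by
  have := coin_prob
  unfold PP; infer_instance

theorem abs_sgn (b : Bool) : |sgn b| = 1 := by cases b <;> simp [sgn]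

theorem int_coin (f : Bool → ℂ) : ∫ b, f b ∂coin = (f true + f false) / 2 := by
  have := coin_prob
  rw [integral_fintype (Integrable.of_finite)]
  simp [coin, Measure.real]
  ring

variable {lam : ℝ}

theorem summ (h0 : 0 < lam) (h1 : lam < 1) (ε : ℕ → Bool) :
    Summable fun n => sgn (ε n) * lam ^ n := by
  refine Summable.of_norm_bounded (summable_geometric_of_lt_one h0.le h1) fun n => ?_
  rw [Real.norm_eq_abs, abs_mul, abs_sgn, one_mul, abs_of_pos (pow_pos h0 n)]

theorem abs_Y (h0 : 0 < lam) (h1 : lam < 1) (ε : ℕ → Bool) : |Yser lam ε| ≤ (1 - lam)⁻¹ := by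
  rw [← tsum_geometric_of_lt_one h0.le h1, ← Real.norm_eq_abs]
  refine tsum_of_norm_bounded (summable_geometric_of_lt_one h0.le h1).hasSum fun n => ?_
  rw [Real.norm_eq_abs, abs_mul, abs_sgn, one_mul, abs_of_pos (pow_pos h0 n)]

theorem meas_Y (h0 : 0 < lam) (h1 : lam < 1) : Measurable (Yser lam) := by
  refine measurable_of_tendsto_metrizable
    (f := fun N ε => ∑ n ∈ range N, sgn (ε n) * lam ^ n) (fun N => ?_) ?_
  · refine Finset.measurable_sum _ fun n _ => ?_
    exact ((measurable_of_finite sgn).comp (measurable_pi_apply n)).mul_const _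
  · exact tendsto_pi_nhds.2 fun ε => (summ h0 h1 ε).hasSum.tendsto_sum_nat

theorem bern_prob (h0 : 0 < lam) (h1 : lam < 1) : IsProbabilityMeasure (bern lam) := by
  have := PP_prob
  exact Measure.isProbabilityMeasure_map (μ := PP) (meas_Y h0 h1).aemeasurable

theorem indep_PP : iIndepFun (fun (i : ℕ) (ω : ℕ → Bool) => ω i) PP := by
  have := coin_prob
  exact iIndepFun_infinitePi (P := fun _ : ℕ => coin) (X := fun _ b => b) (fun _ => measurable_id)

theorem fin_formula (x : ℕ → ℝ) (N : ℕ) :
    ∫ ε, cos (∑ n ∈ range N, sgn (ε n) * x n) ∂PP = ∏ n ∈ range N, cos (x n) := by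
  have := coin_prob
  have := PP_prob
  have h1 : iIndepFun (fun (i : Fin N) (ω : ℕ → Bool) => ω i) PP :=
    indep_PP.precomp (g := fun i : Fin N => (i : ℕ)) Fin.val_injective
  have h2 := h1.integral_fun_prod_comp (𝕜 := ℂ)
    (f := fun (i : Fin N) (b : Bool) => Complex.exp ((sgn b * x i : ℝ) * Complex.I))
    (fun i => (measurable_pi_apply _).aemeasurable)
    (fun i => (measurable_of_finite _).aestronglyMeasurable)
  have h3 : ∀ i : ℕ, ∫ ω, Complex.exp ((sgn (ω i) * x i : ℝ) * Complex.I) ∂PP
      = (cos (x i) : ℝ) := by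
    intro i
    have hm : PP.map (fun ω => ω i) = coin := Measure.infinitePi_map_eval _ i
    have := integral_map (μ := PP) (φ := fun ω : ℕ → Bool => ω i)
      (measurable_pi_apply i).aemeasurable
      (f := fun b : Bool => Complex.exp ((sgn b * x i : ℝ) * Complex.I))
      (measurable_of_finite _).aestronglyMeasurable
    rw [← this, hm, int_coin]
    simp [sgn, Complex.cos]
  simp only [h3] at h2
  have h4 : ∀ ω : ℕ → Bool, ∏ i : Fin N, Complex.exp ((sgn (ω i) * x i : ℝ) * Complex.I)
      = Complex.exp ((∑ n ∈ range N, sgn (ω n) * x n : ℝ) * Complex.I) := by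
    intro ω
    rw [← Complex.exp_sum, ← Finset.sum_mul, ← Complex.ofReal_sum,
      Fin.sum_univ_eq_sum_range (fun n => sgn (ω n) * x n)]
  simp only [h4] at h2
  have hi : Integrable (fun ω : ℕ → Bool =>
      Complex.exp ((∑ n ∈ range N, sgn (ω n) * x n : ℝ) * Complex.I)) PP := by
    refine Integrable.of_bound ?_ 1 (ae_of_all _ fun ω => by
      rw [Complex.norm_exp_ofReal_mul_I])
    refine Measurable.aestronglyMeasurable ?_
    refine Complex.measurable_exp.comp (Measurable.mul_const ?_ _)
    refine Complex.measurable_ofReal.comp (Finset.measurable_sum _ fun n _ => ?_)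
    exact ((measurable_of_finite sgn).comp (measurable_pi_apply n)).mul_const _
  have h5 := integral_re hi
  simp only [RCLike.re_to_complex, Complex.exp_ofReal_mul_I_re] at h5
  rw [h5, h2, ← Complex.ofReal_prod, Complex.ofReal_re,
    Fin.prod_univ_eq_prod_range (fun n => cos (x n))]

/-- cosine transform -/
noncomputable def chi (μ : Measure ℝ) (t : ℝ) : ℝ := ∫ y, cos (π * t * y) ∂μ

theorem chi_bern (h0 : 0 < lam) (h1 : lam < 1) (t : ℝ) :
    chi (bern lam) t = ∫ ε, cos (π * t * Yser lam ε) ∂PP :=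
  integral_map (μ := PP) (meas_Y h0 h1).aemeasurable
    (by fun_prop : Continuous fun y : ℝ => cos (π * t * y)).aestronglyMeasurable

theorem chi_lim (h0 : 0 < lam) (h1 : lam < 1) (t : ℝ) :
    Tendsto (fun N => ∏ n ∈ range N, cos (π * (t * lam ^ n))) atTop (𝓝 (chi (bern lam) t)) := by
  have := PP_prob
  simp only [← fin_formula]
  rw [chi_bern h0 h1]
  refine tendsto_integral_of_dominated_convergence (fun _ => 1) (fun N => ?_)
    (integrable_const _) (fun N => ae_of_all _ fun ε => abs_cos_le_one _) (ae_of_all _ fun ε => ?_)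
  · refine Measurable.aestronglyMeasurable (measurable_cos.comp ?_)
    refine Finset.measurable_sum _ fun n _ => ?_
    exact ((measurable_of_finite sgn).comp (measurable_pi_apply n)).mul_const _
  · have h := ((summ h0 h1 ε).hasSum.tendsto_sum_nat).const_mul (π * t)
    refine (continuous_cos.tendsto _).comp (h.congr fun N => ?_)
    rw [Finset.mul_sum]
    exact Finset.sum_congr rfl fun n _ => by ring

theorem chi_step (h0 : 0 < lam) (h1 : lam < 1) (t : ℝ) :
    chi (bern lam) t = cos (π * t) * chi (bern lam) (t * lam) := by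
  refine tendsto_nhds_unique ((chi_lim h0 h1 t).comp (tendsto_add_atTop_nat 1)) ?_
  refine ((chi_lim h0 h1 (t * lam)).const_mul (cos (π * t))).congr fun N => ?_
  simp only [Function.comp, Finset.prod_range_succ', pow_zero, mul_one]
  rw [mul_comm]
  congr 1
  exact Finset.prod_congr rfl fun n _ => by ring_nf

theorem chi_prod (h0 : 0 < lam) (h1 : lam < 1) (t : ℝ) (N : ℕ) :
    |chi (bern lam) t| =
      (∏ n ∈ range N, |cos (π * (t * lam ^ n))|) * |chi (bern lam) (t * lam ^ N)| := by
  induction N with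
  | zero => simp
  | succ N ih =>
    rw [ih, chi_step h0 h1 (t * lam ^ N), Finset.prod_range_succ, abs_mul, pow_succ, mul_assoc,
      mul_assoc]

theorem chi_le (μ : Measure ℝ) [IsProbabilityMeasure μ] (t : ℝ) : |chi μ t| ≤ 1 := by
  have := norm_integral_le_of_norm_le_const (μ := μ) (f := fun y => cos (π * t * y)) (C := 1)
    (ae_of_all _ fun y => abs_cos_le_one _)
  simpa [chi] using this

theorem chi_mono (h0 : 0 < lam) (h1 : lam < 1) (t : ℝ) (N : ℕ) :
    |chi (bern lam) t| ≤ |chi (bern lam) (t * lam ^ N)| := by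
  rw [chi_prod h0 h1 t N]
  refine mul_le_of_le_one_left (abs_nonneg _) ?_
  exact Finset.prod_le_one (fun _ _ => abs_nonneg _) fun _ _ => abs_cos_le_one _

theorem chi_half (h0 : 0 < lam) (h1 : lam < 1) {t : ℝ} (ht : |t| ≤ (1 - lam) / 8) :
    1 / 2 ≤ chi (bern lam) t := by
  have := PP_prob
  rw [chi_bern h0 h1]
  have : ∫ _ : ℕ → Bool, (1 / 2 : ℝ) ∂PP = 1 / 2 := by simp
  rw [← this]
  refine integral_mono (integrable_const _) ?_ fun ε => ?_
  · exact Integrable.of_bound
      (measurable_cos.comp ((meas_Y h0 h1).const_mul _)).aestronglyMeasurable 1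
      (ae_of_all _ fun ε => abs_cos_le_one _)
  · have hb := abs_Y h0 h1 ε
    have hl : 0 < 1 - lam := by linarith
    have h2 : |π * t * Yser lam ε| ≤ 1 / 2 := by
      rw [abs_mul, abs_mul, abs_of_pos pi_pos]
      calc π * |t| * |Yser lam ε| ≤ 4 * ((1 - lam) / 8) * (1 - lam)⁻¹ := by
            gcongr; exact pi_le_four
        _ = 1 / 2 := by field_simp; norm_num
    have h3 := one_sub_sq_div_two_le_cos (x := π * t * Yser lam ε)
    have h4 : (π * t * Yser lam ε) ^ 2 ≤ (1 / 2) ^ 2 := by
      rw [← sq_abs]; gcongr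
    show (1 / 2 : ℝ) ≤ cos (π * t * Yser lam ε)
    linarith

end Vale.Agent.P105
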