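import Mathlib

open Real Finset

namespace Vale.Agent.P105

theorem cos_shift {s : ℝ} (hs : |s| = 1) (x : ℝ) (n : ℤ) : |cos (π * (s * x + n))| = |cos (π * x)| := by
  rw [mul_add, mul_comm π (n : ℝ), cos_add_int_mul_pi, abs_mul, abs_zpow, abs_neg, abs_one, one_zpow,
    one_mul]
  rcases (abs_eq zero_le_one).1 hs with h | h <;> simp [h]

theorem cosL {s x y r : ℝ} {n : ℤ} (hs : |s| = 1) (h : |y - s * x - n| ≤ r) :
    |cos (π * y)| ≤ |cos (π * x)| + 4 * r ∧ |cos (π * x)| ≤ |cos (π * y)| + 4 * r := by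
  rw [← cos_shift hs x n]
  have h1 := abs_cos_sub_cos_le (π * y) (π * (s * x + n))
  have h2 : |π * y - π * (s * x + n)| ≤ 4 * r := by
    rw [← mul_sub, abs_mul, abs_of_pos pi_pos, ← sub_sub]
    exact mul_le_mul pi_le_four h (abs_nonneg _) (by norm_num)
  have h3 := abs_abs_sub_abs_le_abs_sub (cos (π * y)) (cos (π * (s * x + n)))
  have h4 := abs_le.1 (h3.trans (h1.trans h2))
  constructor <;> linarith [h4.1, h4.2]

theorem le_exp {a b r η : ℝ} (hη : 0 < η) (ha : η ≤ a) (hr : 0 ≤ r) (h : b ≤ a + r) :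
    b ≤ a * exp (r / η) := by
  have h1 := add_one_le_exp (r / η)
  have h2 : r ≤ a * (r / η) := by
    rw [mul_div_assoc', le_div_iff₀ hη]; nlinarith
  nlinarith

theorem cosQ {x r : ℝ} {n : ℤ} (h : |x - n| ≤ r) : 1 ≤ |cos (π * x)| + 5 * r ^ 2 := by
  have h1 := cos_shift (s := 1) abs_one (x - n) n
  rw [one_mul, sub_add_cancel] at h1
  have h2 := one_sub_sq_div_two_le_cos (x := π * (x - n))
  have h3 : (x - n) ^ 2 ≤ r ^ 2 := by rw [← sq_abs]; gcongr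
  have h4 : π ^ 2 ≤ 10 := by nlinarith [pi_lt_d2, pi_pos]
  have h5 : (π * (x - n)) ^ 2 ≤ 10 * r ^ 2 := by rw [mul_pow]; gcongr
  linarith [le_abs_self (cos (π * (x - n)))]

theorem prod_exp (k : ℕ) (g h e : ℕ → ℝ) {E : ℝ} (hg : ∀ i, 0 ≤ g i) (hh : ∀ i, 0 ≤ h i)
    (H : ∀ i < k, g i ≤ h i * exp (e i)) (hE : ∑ i ∈ range k, e i ≤ E) :
    ∏ i ∈ range k, g i ≤ (∏ i ∈ range k, h i) * exp E := by
  calc ∏ i ∈ range k, g i ≤ ∏ i ∈ range k, h i * exp (e i) :=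
        Finset.prod_le_prod (fun i _ => hg i) fun i hi => H i (mem_range.1 hi)
    _ = (∏ i ∈ range k, h i) * exp (∑ i ∈ range k, e i) := by
        rw [Finset.prod_mul_distrib, exp_sum]
    _ ≤ _ := by
        gcongr
        exact Finset.prod_nonneg fun i _ => hh i

theorem irr_pos {ϑ : ℝ} (h : Irrational ϑ) {q : ℕ} (hq : 0 < q) (p : ℤ) : 0 < |q * ϑ - p| :=
  abs_pos.2 (sub_ne_zero.2 ((h.natCast_mul hq.ne').ne_int p))

theorem irr_far {ϑ : ℝ} (h : Irrational ϑ) (Q : ℕ) :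
    ∃ ε > 0, ∀ q : ℕ, 0 < q → ∀ p : ℤ, |q * ϑ - p| ≤ ε → Q ≤ q := by
  induction Q with
  | zero => exact ⟨1, one_pos, fun _ _ _ _ => Nat.zero_le _⟩
  | succ Q ih =>
    obtain ⟨ε, hε, H⟩ := ih
    rcases Nat.eq_zero_or_pos Q with rfl | hQ
    · exact ⟨1, one_pos, fun q hq _ _ => hq⟩
    have hd := irr_pos h hQ (round (Q * ϑ))
    refine ⟨min ε (|Q * ϑ - round (Q * ϑ)| / 2), by positivity, fun q hq p hp => ?_⟩
    refine lt_of_le_of_ne (H q hq p (hp.trans (min_le_left _ _))) ?_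
    rintro rfl
    linarith [round_le (Q * ϑ) p, hp.trans (min_le_right _ _)]

theorem dioph {ϑ τ : ℝ} (h : Irrational ϑ) (h0 : 0 < τ) (h1 : τ ≤ 1 / 2000) :
    ∃ (q : ℕ) (p : ℤ), 0 < q ∧ q * τ ^ 2 ≤ 4 ∧ |q * ϑ - p| ≤ τ ^ 2 ∧
      ∀ q' : ℕ, 0 < q' → ∀ p' : ℤ, |q' * ϑ - p'| ≤ (26 * |q * ϑ - p|) ^ 2 → 4 * q ≤ q' := by
  have ht : 0 < τ ^ 2 := by positivity
  have ht1 : τ ^ 2 ≤ 1 / 4000000 := by nlinarith
  have hn : 0 < ⌊1 / τ ^ 2⌋₊ := Nat.floor_pos.2 (by rw [le_div_iff₀ ht]; linarith)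
  obtain ⟨q, hq, hqn, hd⟩ := Real.exists_nat_abs_mul_sub_round_le ϑ hn
  have hq1 : (q : ℝ) * τ ^ 2 ≤ 1 := by
    rw [← le_div_iff₀ ht]
    exact (Nat.cast_le.2 hqn).trans (Nat.floor_le (by positivity))
  have hd1 : |q * ϑ - round (q * ϑ)| ≤ τ ^ 2 := by
    refine hd.trans ?_
    rw [div_le_iff₀ (by positivity), ← div_le_iff₀' ht]
    exact (Nat.lt_floor_add_one _).le
  by_cases H : ∀ q' : ℕ, 0 < q' → ∀ p' : ℤ,
      |q' * ϑ - p'| ≤ (26 * |q * ϑ - round (q * ϑ)|) ^ 2 → 4 * q ≤ q'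
  · exact ⟨q, _, hq, by linarith, hd1, H⟩
  push Not at H
  obtain ⟨a, ha, p, hp, haq⟩ := H
  have ha4 : (a : ℝ) * τ ^ 2 ≤ 4 := by
    have : (a : ℝ) ≤ 4 * q := by exact_mod_cast haq.le
    nlinarith
  have hp1 : |a * ϑ - p| ≤ 676 * (τ ^ 2) ^ 2 := by
    refine hp.trans ?_
    have := pow_le_pow_left₀ (abs_nonneg _) hd1 2
    rw [mul_pow]; linarith
  have hp2 : |a * ϑ - p| ≤ τ ^ 2 := hp1.trans (by nlinarith)
  refine ⟨a, p, ha, ha4, hp2, fun b hb r hr => ?_⟩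
  by_contra hba
  have hb4 : (b : ℝ) ≤ 4 * a := by exact_mod_cast (not_le.1 hba).le
  have hap := irr_pos h ha p
  set d := |a * ϑ - p| with hdd
  have ha0 : (0 : ℝ) ≤ a := Nat.cast_nonneg a
  have hb1 : (1 : ℝ) ≤ b := by exact_mod_cast hb
  have had : a * d ≤ 2704 * τ ^ 2 := by nlinarith [mul_le_mul_of_nonneg_left hp1 ha0]
  have hr1 : |b * ϑ - r| ≤ d := hr.trans (by nlinarith)
  have e1 : ((b * p - a * r : ℤ) : ℝ) = a * (b * ϑ - r) - b * (a * ϑ - p) := by push_cast; ring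
  have e2 : |((b * p - a * r : ℤ) : ℝ)| < 1 := by
    rw [e1]
    refine (abs_sub _ _).trans_lt ?_
    rw [abs_mul, abs_mul, Nat.abs_cast, Nat.abs_cast]
    nlinarith [mul_le_mul_of_nonneg_left hr1 ha0, mul_le_mul_of_nonneg_right hb4 hap.le]
  have e3 : (b * p - a * r : ℤ) = 0 := Int.abs_lt_one_iff.1 (by exact_mod_cast e2)
  rw [e3, Int.cast_zero, eq_comm, sub_eq_zero] at e1
  have e4 : a * |b * ϑ - r| = b * d := by
    have := congrArg abs e1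
    rwa [abs_mul, abs_mul, Nat.abs_cast, Nat.abs_cast] at this
  have e5 : d ≤ a * (26 * d) ^ 2 := by
    nlinarith [mul_le_mul_of_nonneg_left hr ha0]
  nlinarith

theorem three_two {B ε : ℝ} (hB : 0 < B) (hε : 0 < ε) :
    ∃ r : ℕ, (1 / 2 : ℝ) ^ (3 ^ r) ≤ ε * B ^ (2 ^ r) := by
  obtain ⟨n, hn⟩ := exists_pow_lt_of_lt_one (lt_min hB hε) (by norm_num : (1 / 2 : ℝ) < 1)
  have h1 : ∀ r : ℕ, (r + 2) * 2 ^ r ≤ 2 * 3 ^ r := by
    intro r
    induction r with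
    | zero => simp
    | succ r ih => rw [pow_succ, pow_succ]; nlinarith [Nat.pos_of_ne_zero (pow_ne_zero r two_ne_zero)]
  refine ⟨4 * n, ?_⟩
  have h2 : n + n * 2 ^ (4 * n) ≤ 3 ^ (4 * n) := by
    have := h1 (4 * n)
    nlinarith [Nat.one_le_two_pow (n := 4 * n)]
  calc (1 / 2 : ℝ) ^ (3 ^ (4 * n)) ≤ (1 / 2) ^ (n + n * 2 ^ (4 * n)) :=
        pow_le_pow_of_le_one (by norm_num) (by norm_num) h2
    _ = (1 / 2) ^ n * ((1 / 2) ^ n) ^ (2 ^ (4 * n)) := by rw [pow_add, pow_mul]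
    _ ≤ _ := by
        gcongr
        · exact hn.le.trans (min_le_right _ _)
        · exact hn.le.trans (min_le_left _ _)

end Vale.Agent.P105
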