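import Mathlib

open MeasureTheory
open scoped ENNReal

namespace Vale.Agent.P105

/-- The fair coin on `Bool`. -/
noncomputable def coin : Measure Bool :=
  (1 / 2 : ℝ≥0∞) • Measure.dirac true + (1 / 2 : ℝ≥0∞) • Measure.dirac false

/-- The sign `+1` or `-1` shown by the coin. -/
noncomputable def sgn (b : Bool) : ℝ := if b then 1 else -1

/-- The random series `Y = ∑ εₙ λⁿ`. -/
noncomputable def Yser (lam : ℝ) (ε : ℕ → Bool) : ℝ := ∑' n, sgn (ε n) * lam ^ n

/-- The Bernoulli convolution `ν_λ`: the law of `Y` for independent fair signs. -/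
noncomputable def bern (lam : ℝ) : Measure ℝ :=
  (Measure.infinitePi fun _ : ℕ => coin).map (Yser lam)

/-- A measure on the line is singular if it is a probability measure giving full mass to a
Borel set of Lebesgue measure zero. -/
def IsSingular (ν : Measure ℝ) : Prop :=
  ν Set.univ = 1 ∧ ∃ A : Set ℝ, MeasurableSet A ∧ volume A = 0 ∧ ν A = 1

/-- Pisot number: a real algebraic integer `β > 1` whose other conjugates have modulus `< 1`. -/
def IsPisot (β : ℝ) : Prop :=
  1 < β ∧ IsIntegral ℤ β ∧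
    ∀ z : ℂ, Polynomial.aeval z (minpoly ℚ β) = 0 → z ≠ (β : ℂ) → ‖z‖ < 1

/-- Salem number: a real algebraic integer `β > 1` whose other conjugates have modulus `≤ 1`,
at least one of them having modulus exactly `1`. -/
def IsSalem (β : ℝ) : Prop :=
  1 < β ∧ IsIntegral ℤ β ∧
    (∀ z : ℂ, Polynomial.aeval z (minpoly ℚ β) = 0 → z ≠ (β : ℂ) → ‖z‖ ≤ 1) ∧
    ∃ z : ℂ, Polynomial.aeval z (minpoly ℚ β) = 0 ∧ ‖z‖ = 1

end Vale.Agent.P105
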