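import Vale.Agent.P105.Alg

open Real Finset MeasureTheory Polynomial

namespace Vale.Agent.P105

noncomputable def qq (a e : ℤ) : ℤ[X] := X ^ 4 - C a * X ^ 3 + C (e + 2) * X ^ 2 - C a * X + 1

theorem qq_monic (a e : ℤ) : (qq a e).Monic := by unfold qq; monicity!

theorem qq_deg (a e : ℤ) : (qq a e).natDegree = 4 := by unfold qq; compute_degree!

theorem qq_irr (a e : ℤ) (p : ℕ) [hp : Fact p.Prime] (h5 : ¬ p ∣ 5) (ha : (a : ZMod p) = -1)
    (he : (e : ZMod p) + 2 = 1)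
    (ho : orderOf (ZMod.unitOfCoprime _ (hp.1.coprime_iff_not_dvd.mpr h5)) = 4) :
    Irreducible ((qq a e).map (algebraMap ℤ ℚ)) := by
  rw [← (qq_monic a e).irreducible_iff_irreducible_map_fraction_map]
  refine Monic.irreducible_of_irreducible_map (Int.castRingHom (ZMod p)) _ (qq_monic a e) ?_
  have : Fact (Nat.Prime 5) := ⟨by norm_num⟩
  refine ZMod.irreducible_of_dvd_cyclotomic_of_natDegree h5 (dvd_of_eq ?_) ?_
  · rw [cyclotomic_prime, qq]
    simp only [Polynomial.map_add, Polynomial.map_sub, Polynomial.map_mul, Polynomial.map_pow,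
      map_X, map_C, Polynomial.map_one, eq_intCast (Int.castRingHom (ZMod p)), Int.cast_add, ha,
      Int.cast_ofNat, he, Finset.sum_range_succ, map_neg, map_one]
    simp; ring
  · rw [(qq_monic a e).natDegree_map, qq_deg, ho]

theorem salem_of {a e : ℤ} (hi : Irreducible ((qq a e).map (algebraMap ℤ ℚ))) (he : |e| ≤ 4)
    {lam : ℝ} (h0 : 0 < lam) (h1 : lam < 1)
    (h : lam ^ 4 - a * lam ^ 3 + (e + 2) * lam ^ 2 - a * lam + 1 = 0) :
    IsSalem lam⁻¹ ∧ (minpoly ℚ lam⁻¹).natDegree = 4 := by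
  have hb : lam⁻¹ ^ 4 - a * lam⁻¹ ^ 3 + (e + 2) * lam⁻¹ ^ 2 - a * lam⁻¹ + 1 = 0 := by
    field_simp; linear_combination h
  have hm : (qq a e).map (algebraMap ℤ ℚ) = minpoly ℚ lam⁻¹ := by
    refine minpoly.eq_of_irreducible_of_monic hi ?_ ((qq_monic a e).map _)
    rw [aeval_map_algebraMap, qq]
    simpa [map_ofNat] using hb
  have hz : ∀ z : ℂ, aeval z (minpoly ℚ lam⁻¹)
      = z ^ 4 - a * z ^ 3 + (e + 2) * z ^ 2 - a * z + 1 := fun z => by
    rw [← hm, aeval_map_algebraMap, qq]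
    simp [map_ofNat]
  set y := lam + lam⁻¹ with hy
  have hy2 : 2 < y := by
    have : y - 2 = (1 - lam) ^ 2 / lam := by rw [hy]; field_simp; ring
    have h2 : 0 < (1 - lam) ^ 2 / lam := by
      have : 0 < 1 - lam := by linarith
      positivity
    linarith
  have hye : y * (a - y) = e := by rw [hy]; field_simp; linear_combination -h
  have he' : |(e : ℝ)| ≤ 4 := by exact_mod_cast he
  have hy' : (a - y) ^ 2 < 4 := by
    have : |a - y| < 2 := by
      rw [← hye, abs_mul, abs_of_pos (by linarith : 0 < y)] at he'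
      nlinarith [abs_nonneg (a - y)]
    nlinarith [abs_lt.1 this]
  have fac : ∀ z : ℂ, z ^ 4 - a * z ^ 3 + (e + 2) * z ^ 2 - a * z + 1
      = (z - (lam⁻¹ : ℝ)) * (z - lam) * (z ^ 2 - ((a - y : ℝ) : ℂ) * z + 1) := fun z => by
    have h2 : ((e : ℝ) : ℂ) = ((y * (a - y) : ℝ) : ℂ) := by rw [hye]
    have h3 : (lam : ℂ) ≠ 0 := by exact_mod_cast h0.ne'
    rw [hy] at h2 ⊢
    push_cast at h2 ⊢
    rw [h2]; field_simp; ring
  have un : ∀ z : ℂ, z ^ 2 - ((a - y : ℝ) : ℂ) * z + 1 = 0 → ‖z‖ = 1 := fun z hz => by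
    generalize (a : ℝ) - y = t at hy' hz
    have hre := congrArg Complex.re hz
    have him := congrArg Complex.im hz
    simp [sq] at hre him
    have h2 : z.im * (2 * z.re - t) = 0 := by linarith
    have h3 : z.re * z.re + z.im * z.im = 1 := by
      rcases mul_eq_zero.1 h2 with h2 | h2
      · rw [h2] at hre; nlinarith [sq_nonneg (2 * z.re - t)]
      · have : t = 2 * z.re := by linarith
        rw [this] at hre; linarith
    rw [Complex.norm_def, Complex.normSq_apply, h3, sqrt_one]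
  refine ⟨⟨(one_lt_inv₀ h0).2 h1, integral_of hb, fun z hz0 hne => ?_, ?_⟩, ?_⟩
  · rw [hz, fac, mul_eq_zero, mul_eq_zero, sub_eq_zero, sub_eq_zero] at hz0
    rcases hz0 with (h2 | h2) | h2
    · exact absurd h2 hne
    · rw [h2, Complex.norm_real, Real.norm_eq_abs, abs_of_pos h0]; exact h1.le
    · exact (un z h2).le
  · obtain ⟨z, hz1⟩ := IsAlgClosed.exists_root (k := ℂ) (C 1 * X ^ 2 + C (-((a - y : ℝ) : ℂ)) * X + C 1)
      (by rw [degree_quadratic one_ne_zero]; norm_num)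
    have hz2 : z ^ 2 - ((a - y : ℝ) : ℂ) * z + 1 = 0 := by
      rw [IsRoot.def] at hz1
      simp only [eval_add, eval_mul, eval_C, eval_pow, eval_X] at hz1
      linear_combination hz1
    exact ⟨z, by rw [hz, fac, hz2, mul_zero], un z hz2⟩
  · rw [← hm, (qq_monic a e).natDegree_map, qq_deg]

theorem irr1 : Irreducible ((qq 1 (-3)).map (algebraMap ℤ ℚ)) :=
  qq_irr 1 (-3) 2 (by norm_num) (by decide) (by decide)
    (by rw [orderOf_eq_iff (by norm_num)]; decide)

theorem irr2 : Irreducible ((qq 2 (-1)).map (algebraMap ℤ ℚ)) :=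
  qq_irr 2 (-1) 3 (by norm_num) (by decide) (by decide)
    (by rw [orderOf_eq_iff (by norm_num)]; decide)

theorem not_pisot {β : ℝ} (h : IsSalem β) : ¬ IsPisot β := by
  rintro ⟨h1, -, h2⟩
  obtain ⟨-, -, -, z, hz, hz1⟩ := h
  refine (h2 z hz ?_).ne hz1
  rintro rfl
  rw [Complex.norm_real, Real.norm_eq_abs, abs_of_pos (by linarith)] at hz1
  linarith

theorem root_ex (f : ℝ → ℝ) (hf : Continuous f) (h1 : 0 < f (1 / 2)) (h2 : f 1 < 0) :
    ∃ lam, 1 / 2 < lam ∧ lam < 1 ∧ f lam = 0 := by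
  obtain ⟨x, hx, hx0⟩ := intermediate_value_Ioo' (by norm_num : (1 / 2 : ℝ) ≤ 1) hf.continuousOn
    (show (0 : ℝ) ∈ Set.Ioo (f 1) (f (1 / 2)) from ⟨h2, h1⟩)
  exact ⟨x, hx.1, hx.2, hx0⟩

end Vale.Agent.P105
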