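import Vale.Agent.P105.State

open Real Finset MeasureTheory

namespace Vale.Agent.P105

variable {lam ϑ u σ δ η : ℝ} {z : ℂ} {T : ℕ}

theorem St.chi_lo (S : St lam ϑ u σ z T) (h0 : 0 < lam) (h1 : lam < 1) (hz : ‖z‖ ≤ δ)
    (hη0 : 0 < η) (hη : ∀ i, η ≤ ff lam u i) {k : ℕ} (hk : k * δ ^ 2 ≤ 1) :
    exp (-(42 / η)) / 2 * PR lam u (2 * T + 1) ≤ |chi (bern lam) (vv lam u (2 * T + k))| := by
  have a1 := S.ext h0 h1 hz hη0 hη k
  have a2 : exp ((2 + 40 * (k * δ ^ 2)) / η) ≤ exp (42 / η) := by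
    gcongr; linarith
  have a3 := chi_prod h0 h1 (vv lam u (2 * T + k)) (2 * T + 1 + k)
  have a4 : ∏ n ∈ range (2 * T + 1 + k), |cos (π * (vv lam u (2 * T + k) * lam ^ n))|
      = PR lam u (2 * T + 1 + k) := by
    rw [PR_refl]
    refine Finset.prod_congr rfl fun n _ => ?_
    rw [vv_mul h0, ff]
    congr 4; push_cast; ring
  have a5 : 1 / 2 ≤ |chi (bern lam) (vv lam u (2 * T + k) * lam ^ (2 * T + 1 + k))| := by
    refine (chi_half h0 h1 ?_).trans (le_abs_self _)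
    rw [vv_mul h0, abs_of_pos (vv_pos h0 S.u0 _)]
    refine (vv_le (j := 0) h0 h1 S.u0 (by push_cast; omega)).trans ?_
    simpa using S.u1
  rw [a3, a4, exp_neg]
  have a6 : PR lam u (2 * T + 1) ≤ PR lam u (2 * T + 1 + k) * exp (42 / η) :=
    a1.trans (mul_le_mul_of_nonneg_left a2 (PR_nonneg _))
  have a7 : (exp (42 / η))⁻¹ * PR lam u (2 * T + 1) ≤ PR lam u (2 * T + 1 + k) := by
    rw [inv_mul_le_iff₀ (exp_pos _)]; linarith
  nlinarith [PR_nonneg (lam := lam) (u := u) (2 * T + 1 + k)]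

theorem St.chi_up (S : St lam ϑ u σ z T) (h0 : 0 < lam) (h1 : lam < 1) (hz : ‖z‖ ≤ δ)
    (hη0 : 0 < η) (hη : ∀ i, η ≤ ff lam u i) (hT : (2 * T + 1 : ℕ) * δ ≤ 1) {k j : ℕ}
    (hjk : j + (2 * T + 1) ≤ k) {s : ℝ} (hs : |s| = 1) :
    |chi (bern lam) (vv lam u (2 * T + k) + s * vv lam u (2 * T + j))|
      ≤ exp (10 / η) * PR lam u (2 * T + 1) ^ 2 := by
  have := bern_prob h0 h1
  have hδ : 0 ≤ δ := (norm_nonneg _).trans hz
  obtain ⟨e, rfl⟩ := Nat.exists_eq_add_of_le hjk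
  set t := vv lam u (2 * T + (j + (2 * T + 1) + e : ℕ)) + s * vv lam u (2 * T + j) with ht
  have htm : ∀ n : ℕ, t * lam ^ n = vv lam u (2 * T + (j + (2 * T + 1) + e : ℕ) - n)
      + s * vv lam u (2 * T + j - n) := fun n => by
    rw [ht, add_mul, mul_assoc, vv_mul h0, vv_mul h0]
  have b1 := chi_mono h0 h1 t j
  rw [chi_prod h0 h1 (t * lam ^ j) (2 * T + 1)] at b1
  have b2 := chi_mono h0 h1 (t * lam ^ j * lam ^ (2 * T + 1)) e
  rw [chi_prod h0 h1 (t * lam ^ j * lam ^ (2 * T + 1) * lam ^ e) (2 * T + 1)] at b2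
  have b3 := b2.trans (mul_le_of_le_one_right
    (Finset.prod_nonneg fun _ _ => abs_nonneg _) (chi_le _ _))
  have c1 : ∏ n ∈ range (2 * T + 1), |cos (π * (t * lam ^ j * lam ^ n))|
      ≤ PR lam u (2 * T + 1) * exp (9 / η) := by
    rw [PR_refl]
    refine prod_exp _ _ _ (fun n => 4 * (u * lam ^ (2 * T + 1 - 1 - n) + 2 * δ) / η)
      (fun _ => abs_nonneg _) (fun _ => ff_nonneg _) (fun n hn => ?_) ?_
    · have hp := mul_pos S.u0 (pow_pos h0 (2 * T + 1 - 1 - n))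
      obtain ⟨m, hm⟩ := S.near' h0 hz (2 * T + (j + (2 * T + 1) + e : ℕ) - (j + n : ℕ))
      refine le_exp hη0 (hη _) (by positivity) (cosL (n := m) hs ?_).1
      rw [mul_assoc, ← pow_add, htm,
        show 2 * (T : ℤ) + j - (j + n : ℕ) = (2 * T + 1 : ℕ) - 1 - n by push_cast; ring,
        add_sub_cancel_right]
      refine hm.trans (add_le_add_left (vv_le h0 h1 S.u0 (by omega)) _)
    · rw [← Finset.sum_div, ← Finset.mul_sum, Finset.sum_add_distrib]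
      simp only [Finset.sum_const, card_range, nsmul_eq_mul]
      exact div_le_div_of_nonneg_right (by linarith [geoL h0 h1 S.u0 S.u1 (2 * T + 1)]) hη0.le
  have c2 : ∏ n ∈ range (2 * T + 1),
      |cos (π * (t * lam ^ j * lam ^ (2 * T + 1) * lam ^ e * lam ^ n))|
      ≤ PR lam u (2 * T + 1) * exp (1 / η) := by
    rw [PR_refl]
    refine prod_exp _ _ _ (fun n => 4 * (u * lam ^ n) / η)
      (fun _ => abs_nonneg _) (fun _ => ff_nonneg _) (fun n hn => ?_) ?_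
    · have hp := mul_pos S.u0 (pow_pos h0 n)
      refine le_exp hη0 (hη _) (by positivity) (cosL (n := 0) abs_one ?_).1
      rw [mul_assoc, mul_assoc, mul_assoc, ← pow_add, ← pow_add, ← pow_add, htm,
        show 2 * (T : ℤ) + (j + (2 * T + 1) + e : ℕ) - (j + (2 * T + 1 + (e + n)) : ℕ)
          = (2 * T + 1 : ℕ) - 1 - n by push_cast; ring, one_mul, add_sub_cancel_left,
        Int.cast_zero, sub_zero, abs_mul, hs, one_mul, abs_of_pos (vv_pos h0 S.u0 _)]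
      exact vv_le h0 h1 S.u0 (by omega)
    · rw [← Finset.sum_div, ← Finset.mul_sum]
      exact div_le_div_of_nonneg_right (by linarith [geoR h0 h1 S.u0 S.u1 (2 * T + 1)]) hη0.le
  refine b1.trans ((mul_le_mul c1 (b3.trans c2) (abs_nonneg _)
    (mul_nonneg (PR_nonneg _) (exp_pos _).le)).trans (le_of_eq ?_))
  rw [show 10 / η = 9 / η + 1 / η by ring, exp_add]
  ring

structure Good (lam ϑ η u σ : ℝ) (z : ℂ) (T : ℕ) (δ : ℝ) : Prop where
  st : St lam ϑ u σ z T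
  hz : ‖z‖ ≤ δ
  d0 : 0 < δ
  d1 : δ ≤ 1 / 2000
  lo : ∀ i, η + 20 * δ + 10 * lam ^ T ≤ ff lam u i
  hT : (2 * T + 1 : ℕ) * δ ≤ 1
  far : ∀ q : ℕ, 0 < q → ∀ p : ℤ, |q * ϑ - p| ≤ δ ^ 2 → T ≤ q

theorem Good.lo' (G : Good lam ϑ η u σ z T δ) (h0 : 0 < lam) (i : ℤ) : η ≤ ff lam u i := by
  linarith [G.lo i, G.d0, pow_pos h0 T]

theorem gstep (hϑ : Irrational ϑ) (S : St lam ϑ u σ z T) (h0 : 0 < lam) (h1 : lam < 1)
    (hz : ‖z‖ ≤ δ) (d0 : 0 < δ) (d1 : δ ≤ 1 / 2000) {η₁ τ : ℝ} (hη : ∀ i, η₁ ≤ ff lam u i)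
    (t0 : 0 < τ) (t1 : τ ≤ 1 / 2000) {Q : ℕ} (hQ : T ≤ Q)
    (far : ∀ q : ℕ, 0 < q → ∀ p : ℤ, |q * ϑ - p| ≤ τ ^ 2 → Q ≤ q)
    (hb : η + 728 * τ ^ 2 * δ + 10 * lam ^ (T + 2 * Q) + 4 * lam ^ Q ≤ η₁) :
    ∃ (q : ℕ) (δ' : ℝ), T ≤ q ∧ q * τ ^ 2 ≤ 4 ∧ δ' ≤ 26 * τ ^ 2 * δ ∧
      Good lam ϑ η (u * (1 - lam ^ (4 * q))) (-σ) (z * (1 - al ϑ (-(4 * q : ℕ)))) (T + 2 * q) δ' := by
  obtain ⟨q, p, hq, hq4, hd, H⟩ := dioph hϑ t0 t1
  have hd0 := irr_pos hϑ hq p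
  have hQq := far q hq p hd
  have hTq := hQ.trans hQq
  have hτ : τ ^ 2 ≤ 1 / 4000000 := by nlinarith
  have hδ' : 26 * |q * ϑ - p| * δ ≤ 26 * τ ^ 2 * δ := by gcongr
  have hz' : ‖z * (1 - al ϑ (-(4 * q : ℕ)))‖ ≤ 26 * |q * ϑ - p| * δ := by
    rw [norm_mul, mul_comm]
    exact mul_le_mul (al_near q p) hz (norm_nonneg _) (by positivity)
  refine ⟨q, 26 * |q * ϑ - p| * δ, hTq, hq4, hδ', S.step h0 h1 hTq, hz', by positivity,
    by nlinarith, fun i => ?_, ?_, fun q' hq' p' hp' => ?_⟩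
  · have a1 := S.cos_step h0 h1 hTq hη hz' i
    have a2 : lam ^ q ≤ lam ^ Q := pow_le_pow_of_le_one h0.le h1.le hQq
    have a3 : lam ^ (T + 2 * q) ≤ lam ^ (T + 2 * Q) := pow_le_pow_of_le_one h0.le h1.le (by omega)
    linarith
  · have a1 : ((2 * (T + 2 * q) + 1 : ℕ) : ℝ) ≤ 7 * q := by
      exact_mod_cast (by omega : 2 * (T + 2 * q) + 1 ≤ 7 * q)
    calc _ ≤ 7 * q * (26 * τ ^ 2 * δ) := by gcongr
      _ = 182 * (q * τ ^ 2) * δ := by ring
      _ ≤ 182 * 4 * (1 / 2000) := by gcongr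
      _ ≤ 1 := by norm_num
  · have := H q' hq' p' (hp'.trans (pow_le_pow_left₀ (by positivity) (by nlinarith) 2))
    omega

theorem Good.next (hϑ : Irrational ϑ) (G : Good lam ϑ η u σ z T δ) (h0 : 0 < lam) (h1 : lam < 1)
    (hη0 : 0 < η) : ∃ u' σ' z' T' δ', Good lam ϑ η u' σ' z' T' δ' ∧ 6 * δ' ≤ (6 * δ) ^ 3 ∧
      (exp (-(700 / η)) * PR lam u (2 * T + 1)) ^ 2 ≤ exp (-(700 / η)) * PR lam u' (2 * T' + 1) := by
  have d0 := G.d0
  have d1 := G.d1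
  obtain ⟨q, δ', hq, hq4, hδ', G'⟩ := gstep (η := η) hϑ G.st h0 h1 G.hz d0 d1 G.lo d0 d1 le_rfl
    G.far (by
      have a1 : lam ^ (T + 2 * T) ≤ lam ^ T * (1 / 8) := by
        rw [pow_add]; gcongr; exact G.st.pow_le h0
      have a2 : δ ^ 2 ≤ 1 / 4000000 := by nlinarith
      nlinarith [pow_pos h0 T])
  refine ⟨_, _, _, _, _, G', by nlinarith [pow_pos d0 3], ?_⟩
  have := G.st.prod_step h0 h1 hq G.hz hη0 (G.lo' h0) hq4 G'.hz (G'.lo' h0) (by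
    refine le_trans ?_ G'.hT
    exact mul_le_mul_of_nonneg_right (Nat.cast_le.2 (by omega)) G'.d0.le)
  rw [mul_pow, sq (exp _), mul_assoc]
  gcongr
  rw [exp_neg, inv_mul_le_iff₀ (exp_pos _)]
  linarith

theorem Good.iter (hϑ : Irrational ϑ) (G : Good lam ϑ η u σ z T δ) (h0 : 0 < lam) (h1 : lam < 1)
    (hη0 : 0 < η) (r : ℕ) : ∃ u' σ' z' T' δ', Good lam ϑ η u' σ' z' T' δ' ∧
      6 * δ' ≤ (1 / 2) ^ (3 ^ r) ∧ (exp (-(700 / η)) * PR lam u (2 * T + 1)) ^ (2 ^ r)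
        ≤ exp (-(700 / η)) * PR lam u' (2 * T' + 1) := by
  induction r with
  | zero => exact ⟨_, _, _, _, _, G, by simpa using by linarith [G.d1], by simp⟩
  | succ r ih =>
    obtain ⟨u', σ', z', T', δ', G', a1, a2⟩ := ih
    obtain ⟨u'', σ'', z'', T'', δ'', G'', b1, b2⟩ := G'.next hϑ h0 h1 hη0
    have := G'.d0
    refine ⟨_, _, _, _, _, G'', b1.trans ?_, le_trans ?_ b2⟩
    · rw [pow_succ 3, pow_mul]; gcongr
    · rw [pow_succ 2, pow_mul]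
      exact pow_le_pow_left₀ (pow_nonneg (mul_nonneg (exp_pos _).le (PR_nonneg _)) _) a2 2

theorem Good.sing (hϑ : Irrational ϑ) (G : Good lam ϑ η u σ z T δ) (h0 : 0 < lam) (h1 : lam < 1)
    (hη0 : 0 < η) : IsSingular (bern lam) := by
  have hP : ∀ {u σ z T δ}, Good lam ϑ η u σ z T δ → 0 < PR lam u (2 * T + 1) := fun G =>
    Finset.prod_pos fun i _ => hη0.trans_le (G.lo' h0 i)
  set a := exp (-(42 / η)) / 2 with ha
  have ha0 : 0 < a := by positivity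
  refine sing_of_tests h0 h1 (p := a ^ 2 / (4 * (exp (10 / η) + 1))) (by positivity) fun ε hε => ?_
  set C := 12 * (1 - lam)⁻¹ ^ 2 with hC
  have hC0 : 0 < C := by have : 0 < 1 - lam := by linarith
                         positivity
  set b := exp (-(700 / η)) * PR lam u (2 * T + 1) with hb
  have hb0 : 0 < b := mul_pos (exp_pos _) (hP G)
  obtain ⟨r, hr⟩ := three_two (pow_pos hb0 2)
    (lt_min (by norm_num : (0 : ℝ) < 1 / 4) (by positivity : 0 < ε * a ^ 2 / C))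
  obtain ⟨u', σ', z', T', δ', G', a1, a2⟩ := G.iter hϑ h0 h1 hη0 r
  set c := PR lam u' (2 * T' + 1) with hc
  have hc0 : 0 < c := hP G'
  have d0 := G'.d0
  have d1 := G'.d1
  set m := min (1 / 4) (ε * a ^ 2 / C) with hm
  have hm0 : 0 < m := lt_min (by norm_num) (by positivity)
  have e1 : (b ^ 2) ^ 2 ^ r ≤ c ^ 2 := by
    rw [← pow_mul, mul_comm, pow_mul]
    refine pow_le_pow_left₀ (by positivity) (a2.trans ?_) 2
    exact mul_le_of_le_one_left hc0.le (exp_le_one_iff.2 (by rw [neg_nonpos]; positivity))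
  have e2 : δ' ≤ m * c ^ 2 := by nlinarith [mul_le_mul_of_nonneg_left e1 hm0.le]
  have ht : 0 < δ' ^ 2 := by positivity
  have ht1 : δ' ^ 2 ≤ 1 := by nlinarith
  set K := ⌊1 / δ' ^ 2⌋₊ with hK
  have hK0 : 0 < K := Nat.floor_pos.2 (by rw [le_div_iff₀ ht]; linarith)
  have hK1 : (K : ℝ) * δ' ^ 2 ≤ 1 := by
    rw [← le_div_iff₀ ht]; exact Nat.floor_le (by positivity)
  have hK2 : 1 ≤ 2 * (K * δ' ^ 2) := by
    have h2 := Nat.lt_floor_add_one (1 / δ' ^ 2)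
    rw [div_lt_iff₀ ht] at h2
    have h3 : (1 : ℝ) ≤ K := by exact_mod_cast hK0
    nlinarith
  have hKp : (0 : ℝ) < K := Nat.cast_pos.2 hK0
  have e3 : 1 ≤ 2 * m * (c ^ 2 * K) * δ' := by
    nlinarith [mul_le_mul_of_nonneg_left e2 (mul_pos hKp d0).le]
  have hv : ∀ k : ℕ, vv lam u' (2 * T') * lam⁻¹ ^ k = vv lam u' (2 * T' + k) := fun k => by
    rw [inv_pow, mul_inv_eq_iff_eq_mul₀ (pow_pos h0 k).ne', vv_mul h0, add_sub_cancel_right]
  have hcK : 0 < c ^ 2 * K := by positivity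
  obtain ⟨A, hA, hAv, hAf, hAp⟩ := test h0 h1 (t₀ := vv lam u' (2 * T')) (a := a) (c := c)
    (G := exp (10 / η)) G'.st.u2 ha0 hc0 (exp_pos _).le (K := K) (l := 2 * T' + 1) hK0
    (by
      refine le_of_mul_le_mul_right ?_ d0
      nlinarith [G'.hT, min_le_left (1 / 4 : ℝ) (ε * a ^ 2 / C), mul_pos hcK d0])
    (fun k hk => by
      rw [hv]
      refine G'.st.chi_lo h0 h1 G'.hz hη0 (G'.lo' h0) (le_trans ?_ hK1)
      gcongr)
    (fun k _ j hj => by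
      rw [hv, hv]
      have b1 := G'.st.chi_up h0 h1 G'.hz hη0 (G'.lo' h0) G'.hT hj (s := -1) (by simp)
      have b2 := G'.st.chi_up h0 h1 G'.hz hη0 (G'.lo' h0) G'.hT hj (s := 1) (by simp)
      rw [neg_one_mul, ← sub_eq_add_neg] at b1
      rw [one_mul] at b2
      exact ⟨b1, b2⟩)
  refine ⟨A, hA, hAv.trans ?_, hAf, hAp⟩
  rw [div_le_iff₀ (by positivity)]
  have e4 : m * C ≤ ε * a ^ 2 := by rw [← le_div_iff₀ hC0]; exact min_le_right _ _
  have e5 : 1 ≤ m * (c ^ 2 * K) := by nlinarith [mul_pos hm0 hcK]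
  nlinarith [mul_le_mul_of_nonneg_right e4 hcK.le, mul_le_mul_of_nonneg_right e5 hC0.le]

theorem St.sing (hϑ : Irrational ϑ) (S : St lam ϑ u σ z T) (h0 : 0 < lam) (h1 : lam < 1)
    (hz : ‖z‖ ≤ 1 / 2000) (hne : ∀ i, 0 < ff lam u i) : IsSingular (bern lam) := by
  have small : ∀ i : ℤ, i ≤ 0 → vv lam u i ≤ 1 / 8 := fun i hi => by
    have := vv_le (j := 0) h0 h1 S.u0 hi
    linarith [S.u1]
  obtain ⟨η₁, hη₁, hη⟩ : ∃ η₁ > 0, ∀ i, η₁ ≤ ff lam u i := by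
    obtain ⟨i₀, _, hi₀⟩ := (Finset.Icc (0 : ℤ) (2 * T)).exists_min_image (ff lam u)
      ⟨0, by simp⟩
    refine ⟨min (1 / 2) (ff lam u i₀), lt_min (by norm_num) (hne _), fun i => ?_⟩
    rcases le_or_gt i 0 with h | h
    · have h2 : |vv lam u i - (0 : ℤ)| ≤ 1 / 4 := by
        rw [Int.cast_zero, sub_zero, abs_of_pos (vv_pos h0 S.u0 _)]; linarith [small i h]
      exact (min_le_left _ _).trans (by rw [ff]; linarith [cosQ h2])
    rcases le_or_gt i (2 * T) with h' | h'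
    · exact (min_le_right _ _).trans (hi₀ i (Finset.mem_Icc.2 ⟨h.le, h'⟩))
    · obtain ⟨n, hn⟩ := S.near' h0 hz i
      have h2 : |vv lam u i - n| ≤ 1 / 4 := by linarith [small (2 * T - i) (by omega)]
      exact (min_le_left _ _).trans (by rw [ff]; linarith [cosQ h2])
  obtain ⟨N, hN⟩ := exists_pow_lt_of_lt_one (by positivity : 0 < η₁ / 56) h1
  obtain ⟨ε, hε, far⟩ := irr_far hϑ (N + T)
  set τ := min (1 / 2000) (min ε (η₁ / 4)) with hτ
  have t0 : 0 < τ := by positivity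
  have t1 : τ ≤ 1 / 2000 := min_le_left _ _
  have t2 : τ ≤ ε := (min_le_right _ _).trans (min_le_left _ _)
  have t3 : τ ≤ η₁ / 4 := (min_le_right _ _).trans (min_le_right _ _)
  obtain ⟨q, δ', -, -, -, G⟩ := gstep (η := η₁ / 2) hϑ S h0 h1 hz (by norm_num) le_rfl hη t0 t1
    (Nat.le_add_left T N) (fun q hq p hp => far q hq p (hp.trans (by nlinarith))) (by
      have a1 : lam ^ (T + 2 * (N + T)) ≤ lam ^ N := pow_le_pow_of_le_one h0.le h1.le (by omega)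
      have a2 : lam ^ (N + T) ≤ lam ^ N := pow_le_pow_of_le_one h0.le h1.le (by omega)
      nlinarith)
  exact G.sing hϑ h0 h1 (by positivity)

end Vale.Agent.P105
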