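import Vale.Agent.P105.Char

open MeasureTheory ProbabilityTheory Filter Topology Real Finset
open scoped ENNReal

namespace Vale.Agent.P105

variable {lam : ℝ}

theorem zero_one (h0 : 0 < lam) (h1 : lam < 1) {A : Set ℝ} (hA : MeasurableSet A)
    (hv : volume A = 0) (hp : bern lam A ≠ 0) : IsSingular (bern lam) := by
  have := bern_prob h0 h1
  set D : Submodule ℤ ℝ := Submodule.span ℤ (Set.range fun n : ℕ => lam ^ n) with hD
  have hc : Countable D := inferInstance
  set B : Set ℝ := ⋃ d : D, (fun y => y + (d : ℝ)) ⁻¹' A with hB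
  have hBm : MeasurableSet B := MeasurableSet.iUnion fun d => (measurable_add_const _) hA
  have hBv : volume B = 0 := measure_iUnion_null fun d => by
    rw [measure_preimage_add_right]; exact hv
  have hinv : ∀ d ∈ D, ∀ y, d + y ∈ B ↔ y ∈ B := by
    intro d hd y
    simp only [hB, Set.mem_iUnion, Set.mem_preimage]
    constructor
    · rintro ⟨e, he⟩
      exact ⟨⟨d + e, D.add_mem hd e.2⟩, by convert he using 1; simp; ring⟩
    · rintro ⟨e, he⟩
      exact ⟨⟨e - d, D.sub_mem e.2 hd⟩, by convert he using 1; simp; ring⟩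
  refine ⟨measure_univ, B, hBm, hBv, ?_⟩
  have hAB : A ⊆ B := fun y hy => Set.mem_iUnion.2 ⟨0, by simpa using hy⟩
  have hne : bern lam B ≠ 0 := fun h => hp (measure_mono_null hAB h)
  have hm : bern lam B = PP (Yser lam ⁻¹' B) := Measure.map_apply (meas_Y h0 h1) hBm
  rw [hm] at hne ⊢
  refine (measure_zero_or_one_of_measurableSet_limsup_atTop
    (fun n => (measurable_pi_apply n).comap_le) indep_PP.iIndep ?_).resolve_left hne
  rw [limsup_eq_iInf_iSup_of_nat', MeasurableSpace.measurableSet_iInf]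
  intro N
  have hs : Yser lam ⁻¹' B = (fun ε : ℕ → Bool => ∑' n, sgn (ε (n + N)) * lam ^ (n + N)) ⁻¹' B := by
    ext ε
    simp only [Set.mem_preimage, Yser]
    rw [← (summ h0 h1 ε).sum_add_tsum_nat_add N]
    refine hinv _ (D.sum_mem fun n _ => ?_) _
    have : lam ^ n ∈ D := Submodule.subset_span ⟨n, rfl⟩
    cases ε n
    · simpa [sgn] using this
    · simpa [sgn] using this
  rw [hs]
  set m : MeasurableSpace (ℕ → Bool) :=
    ⨆ i : ℕ, MeasurableSpace.comap (fun ω : ℕ → Bool => ω (i + N)) inferInstance with hmm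
  have hme : ∀ i, Measurable[m] fun ω : ℕ → Bool => ω (i + N) := fun i =>
    measurable_iff_comap_le.2 (le_iSup (fun i : ℕ =>
      MeasurableSpace.comap (fun ω : ℕ → Bool => ω (i + N)) inferInstance) i)
  have : Measurable[m] fun ε : ℕ → Bool => ∑' n, sgn (ε (n + N)) * lam ^ (n + N) := by
    refine @measurable_of_tendsto_metrizable _ _ m _ _ _ _
      (fun K ε => ∑ n ∈ range K, sgn (ε (n + N)) * lam ^ (n + N)) _ (fun K => ?_) ?_
    · refine Finset.measurable_sum _ fun n _ => ?_
      exact ((measurable_of_finite sgn).comp (hme n)).mul_const _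
    · exact tendsto_pi_nhds.2 fun ε =>
        ((summable_nat_add_iff N).2 (summ h0 h1 ε)).hasSum.tendsto_sum_nat
  exact this hBm

theorem sing_of_tests (h0 : 0 < lam) (h1 : lam < 1) {p : ℝ} (hp : 0 < p)
    (h : ∀ ε : ℝ, 0 < ε → ∃ A : Set ℝ, MeasurableSet A ∧ volume.real A ≤ ε ∧ volume A ≠ ∞ ∧
      p ≤ (bern lam).real A) : IsSingular (bern lam) := by
  have := bern_prob h0 h1
  choose! A hAm hAv hAf hAp using h
  set s : ℕ → Set ℝ := fun n => A ((1 / 2) ^ n) with hs
  have hpos : ∀ n : ℕ, (0 : ℝ) < (1 / 2) ^ n := fun n => by positivity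
  have hsm : ∀ n, MeasurableSet (s n) := fun n => hAm _ (hpos n)
  have hz : volume (limsup s atTop) = 0 := by
    refine measure_limsup_atTop_eq_zero (ne_top_of_le_ne_top ?_ (ENNReal.tsum_le_tsum
      (g := fun n => ENNReal.ofReal ((1 / 2) ^ n)) fun n => ?_))
    · rw [← ENNReal.ofReal_tsum_of_nonneg (fun n => (hpos n).le) summable_geometric_two]
      exact ENNReal.ofReal_ne_top
    · rw [← ENNReal.ofReal_toReal (hAf _ (hpos n))]
      exact ENNReal.ofReal_le_ofReal (hAv _ (hpos n))
  rw [limsup_eq_iInf_iSup_of_nat] at hz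
  simp only [Set.iInf_eq_iInter, Set.iSup_eq_iUnion] at hz
  have hU : ∀ n, MeasurableSet (⋃ i ≥ n, s i) := fun n =>
    MeasurableSet.iUnion fun i => MeasurableSet.iUnion fun _ => hsm i
  refine zero_one h0 h1 (MeasurableSet.iInter hU) hz ?_
  have ht := tendsto_measure_iInter_atTop (μ := bern lam) (s := fun n => ⋃ i ≥ n, s i)
    (fun n => (hU n).nullMeasurableSet)
    (fun a b hab => Set.biUnion_subset_biUnion_left fun i (hi : b ≤ i) => hab.trans hi)
    ⟨0, measure_ne_top _ _⟩
  have hge : ENNReal.ofReal p ≤ bern lam (⋂ n, ⋃ i ≥ n, s i) := by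
    refine ge_of_tendsto' ht fun n => ?_
    refine le_trans ?_ (measure_mono (Set.subset_biUnion_of_mem (u := s) (s := {i | i ≥ n})
      (le_refl n)))
    rw [← ENNReal.ofReal_toReal (measure_ne_top (bern lam) (s n))]
    exact ENNReal.ofReal_le_ofReal (hAp _ (hpos n))
  exact (lt_of_lt_of_le (ENNReal.ofReal_pos.2 hp) hge).ne'

end Vale.Agent.P105
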