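import Vale.Agent.P105.Sing

open MeasureTheory ProbabilityTheory Filter Topology Real Finset
open scoped ENNReal

namespace Vale.Agent.P105

variable {lam : ℝ}

theorem int_cos (μ : Measure ℝ) [IsFiniteMeasure μ] (t : ℝ) :
    Integrable (fun y => cos (π * t * y)) μ :=
  Integrable.of_bound (by fun_prop : Continuous fun y : ℝ => cos (π * t * y)).aestronglyMeasurable
    1 (ae_of_all _ fun _ => abs_cos_le_one _)

theorem chi_neg (μ : Measure ℝ) (t : ℝ) : chi μ (-t) = chi μ t := by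
  simp [chi]

/-- the test function -/
noncomputable def FF (σ t : ℕ → ℝ) (K : ℕ) (y : ℝ) : ℝ := ∑ k ∈ range K, σ k * cos (π * t k * y)

theorem FF_cont (σ t : ℕ → ℝ) (K : ℕ) : Continuous (FF σ t K) := by
  unfold FF; fun_prop

theorem FF_int (μ : Measure ℝ) [IsFiniteMeasure μ] (σ t : ℕ → ℝ) (K : ℕ) :
    Integrable (FF σ t K) μ :=
  integrable_finset_sum _ fun k _ => (int_cos μ (t k)).const_mul _

theorem FF_sq (σ t : ℕ → ℝ) (K : ℕ) (y : ℝ) : FF σ t K y ^ 2 = ∑ k ∈ range K, ∑ j ∈ range K,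
    σ k * σ j / 2 * (cos (π * (t k - t j) * y) + cos (π * (t k + t j) * y)) := by
  rw [sq, FF, Finset.sum_mul_sum]
  refine Finset.sum_congr rfl fun k _ => Finset.sum_congr rfl fun j _ => ?_
  rw [mul_sub π, sub_mul, mul_add π, add_mul, cos_sub, cos_add]
  ring

theorem int_pair (μ : Measure ℝ) [IsFiniteMeasure μ] (c u v : ℝ) :
    Integrable (fun y => c * (cos (π * u * y) + cos (π * v * y))) μ :=
  ((int_cos μ _).add (int_cos μ _)).const_mul _

theorem FF_sq_int (μ : Measure ℝ) [IsFiniteMeasure μ] (σ t : ℕ → ℝ) (K : ℕ) :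
    Integrable (fun y => FF σ t K y ^ 2) μ := by
  simp only [FF_sq]
  exact integrable_finset_sum _ fun k _ => integrable_finset_sum _ fun j _ => int_pair μ _ _ _

theorem second_moment (μ : Measure ℝ) [IsFiniteMeasure μ] (σ t : ℕ → ℝ) (hσ : ∀ k, |σ k| ≤ 1)
    (K : ℕ) (b : ℕ → ℕ → ℝ) (hb : ∀ k < K, ∀ j < K,
      |chi μ (t k - t j)| ≤ b k j ∧ |chi μ (t k + t j)| ≤ b k j) :
    ∫ y, FF σ t K y ^ 2 ∂μ ≤ ∑ k ∈ range K, ∑ j ∈ range K, b k j := by
  simp only [FF_sq]
  rw [integral_finset_sum _ fun k _ => integrable_finset_sum _ fun j _ => int_pair μ _ _ _]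
  refine Finset.sum_le_sum fun k hk => ?_
  rw [integral_finset_sum _ fun j _ => int_pair μ _ _ _]
  refine Finset.sum_le_sum fun j hj => ?_
  rw [integral_const_mul, integral_add (int_cos μ _) (int_cos μ _)]
  obtain ⟨h1, h2⟩ := hb k (mem_range.1 hk) j (mem_range.1 hj)
  refine (le_abs_self _).trans ?_
  rw [abs_mul, abs_div, abs_mul, abs_two]
  have h3 : |σ k| * |σ j| ≤ 1 := mul_le_one₀ (hσ k) (abs_nonneg _) (hσ j)
  have h4 : |chi μ (t k - t j) + chi μ (t k + t j)| ≤ 2 * b k j :=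
    (abs_add_le _ _).trans (by linarith)
  calc _ ≤ 1 / 2 * (2 * b k j) := by
        refine mul_le_mul (by linarith) h4 (abs_nonneg _) (by norm_num)
    _ = b k j := by ring

theorem chi_leb {R : ℝ} (hR : 0 ≤ R) (t : ℝ) :
    |chi (volume.restrict (Set.Icc (-R) R)) t| ≤ 2 * R ∧
      |t| * |chi (volume.restrict (Set.Icc (-R) R)) t| ≤ 1 := by
  constructor
  · have := norm_integral_le_of_norm_le_const (μ := volume.restrict (Set.Icc (-R) R))
      (f := fun y => cos (π * t * y)) (C := 1) (ae_of_all _ fun y => abs_cos_le_one _)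
    rw [measureReal_restrict_apply_univ, Real.volume_real_Icc_of_le (by linarith)] at this
    simpa [chi, two_mul] using this
  · rw [chi, integral_Icc_eq_integral_Ioc, ← intervalIntegral.integral_of_le (by linarith)]
    have h := intervalIntegral.mul_integral_comp_mul_left (f := cos) (a := -R) (b := R) (π * t)
    rw [integral_cos] at h
    have h2 : |π * t * ∫ y in (-R)..R, cos (π * t * y)| ≤ 2 := by
      rw [h]
      have := abs_sin_le_one (π * t * R)
      have := abs_sin_le_one (π * t * -R)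
      exact (abs_sub _ _).trans (by linarith)
    rw [abs_mul, abs_mul, abs_of_pos pi_pos, mul_assoc] at h2
    nlinarith [pi_gt_three, mul_nonneg (abs_nonneg t) (abs_nonneg (∫ y in (-R)..R, cos (π * t * y)))]

theorem geo_le (h0 : 0 < lam) (h1 : lam < 1) (K : ℕ) : ∑ k ∈ range K, lam ^ k ≤ (1 - lam)⁻¹ := by
  rw [← tsum_geometric_of_lt_one h0.le h1]
  exact (summable_geometric_of_lt_one h0.le h1).sum_le_tsum _ fun k _ => (pow_pos h0 k).le

theorem leb_bound (h0 : 0 < lam) (h1 : lam < 1) {t₀ : ℝ} (ht : 1 ≤ t₀) (σ : ℕ → ℝ)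
    (hσ : ∀ k, |σ k| ≤ 1) (K : ℕ) :
    ∫ y in Set.Icc (-(1 - lam)⁻¹) (1 - lam)⁻¹, FF σ (fun k => t₀ * lam⁻¹ ^ k) K y ^ 2
      ≤ 3 * (1 - lam)⁻¹ ^ 2 * K := by
  set R := (1 - lam)⁻¹ with hR
  have hl : 0 < 1 - lam := by linarith
  have hR1 : 1 ≤ R := (one_le_inv₀ hl).2 (by linarith)
  have hb1 : 1 ≤ lam⁻¹ := (one_le_inv₀ h0).2 h1.le
  have key : ∀ (k : ℕ) (t : ℝ), (1 - lam) * lam⁻¹ ^ k ≤ |t| →
      |chi (volume.restrict (Set.Icc (-R) R)) t| ≤ R * lam ^ k := by
    intro k t h
    have h2 := (chi_leb (by linarith : 0 ≤ R) t).2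
    have h3 : (1 - lam) * lam⁻¹ ^ k * |chi (volume.restrict (Set.Icc (-R) R)) t| ≤ 1 :=
      le_trans (by gcongr) h2
    have h4 : R * lam ^ k * ((1 - lam) * lam⁻¹ ^ k) = 1 := by
      rw [hR, inv_pow]; field_simp
    have h5 : 0 < R * lam ^ k := by positivity
    nlinarith [mul_le_mul_of_nonneg_left h3 h5.le]
  refine (second_moment _ σ _ hσ K (fun k j => (if j = k then 2 * R else 0) + R * lam ^ k)
    fun k _ j _ => ?_).trans ?_
  · have hp : 0 ≤ R * lam ^ k := by positivity
    by_cases hjk : j = k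
    · simp only [hjk, if_true]
      exact ⟨(chi_leb (by linarith) _).1.trans (by linarith),
        (chi_leb (by linarith) _).1.trans (by linarith)⟩
    simp only [hjk, if_false, zero_add]
    have hk : 0 < lam⁻¹ ^ k := by positivity
    have hj : 0 < lam⁻¹ ^ j := by positivity
    refine ⟨key k _ ?_, key k _ ?_⟩
    · have hs : ∀ a b : ℕ, a < b → lam⁻¹ ^ a ≤ lam * lam⁻¹ ^ b := by
        intro a b hab
        have : lam⁻¹ ^ (a + 1) ≤ lam⁻¹ ^ b := pow_le_pow_right₀ hb1 hab
        calc lam⁻¹ ^ a = lam * lam⁻¹ ^ (a + 1) := by rw [pow_succ]; field_simp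
          _ ≤ _ := by gcongr
      rw [← mul_sub, abs_mul, abs_of_pos (by linarith : 0 < t₀)]
      refine le_trans ?_ (le_mul_of_one_le_left (abs_nonneg _) ht)
      rcases lt_or_gt_of_ne hjk with h | h
      · have := hs j k h
        exact le_trans (by linarith) (le_abs_self _)
      · have := hs k j h
        have h' : lam⁻¹ ^ k ≤ lam⁻¹ ^ j := pow_le_pow_right₀ hb1 h.le
        exact le_trans (by nlinarith) (neg_le_abs _)
    · exact le_trans (by nlinarith) (le_abs_self _)
  · have : ∀ k ∈ range K, ∑ j ∈ range K, ((if j = k then 2 * R else 0) + R * lam ^ k)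
        = 2 * R + K * R * lam ^ k := by
      intro k hk
      rw [Finset.sum_add_distrib, Finset.sum_ite_eq' , if_pos hk]
      simp; ring
    rw [Finset.sum_congr rfl this, Finset.sum_add_distrib, ← Finset.mul_sum _ (fun k => lam ^ k)]
    simp only [Finset.sum_const, card_range, nsmul_eq_mul]
    have h2 := geo_le h0 h1 K
    have hK : (0 : ℝ) ≤ K := Nat.cast_nonneg K
    have h3 : (K : ℝ) * R * ∑ k ∈ range K, lam ^ k ≤ K * R * R := by gcongr
    have h4 : (K : ℝ) * R * 1 ≤ K * R * R := by gcongr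
    nlinarith

theorem nu_bound (μ : Measure ℝ) [IsProbabilityMeasure μ] (σ t : ℕ → ℝ) (hσ : ∀ k, |σ k| ≤ 1)
    (K l : ℕ) {B : ℝ} (hB : 0 ≤ B) (hb : ∀ k < K, ∀ j, j + l ≤ k →
      |chi μ (t k - t j)| ≤ B ∧ |chi μ (t k + t j)| ≤ B) :
    ∫ y, FF σ t K y ^ 2 ∂μ ≤ B * K ^ 2 + 2 * l * K := by
  refine (second_moment μ σ t hσ K (fun k j => B + if k < j + l ∧ j < k + l then 1 else 0)
    fun k hk j hj => ?_).trans ?_
  · split_ifs with h
    · exact ⟨(chi_le μ _).trans (by linarith), (chi_le μ _).trans (by linarith)⟩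
    · rw [add_zero]
      rcases not_and_or.1 h with h | h
      · exact hb k hk j (not_lt.1 h)
      · have := hb j hj k (not_lt.1 h)
        rwa [← chi_neg, neg_sub, add_comm] at this
  · have : ∀ k ∈ range K, ∑ j ∈ range K, (B + if k < j + l ∧ j < k + l then (1 : ℝ) else 0)
        ≤ B * K + 2 * l := by
      intro k _
      rw [Finset.sum_add_distrib, Finset.sum_boole]
      have h1 : ((range K).filter fun j => k < j + l ∧ j < k + l).card ≤ 2 * l := by
        refine (Finset.card_le_card (t := Finset.Ico (k - l) (k + l)) fun j hj => ?_).trans ?_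
        · simp only [mem_filter, Finset.mem_Ico] at hj ⊢; omega
        · rw [Nat.card_Ico]; omega
      have h2 : (((range K).filter fun j => k < j + l ∧ j < k + l).card : ℝ) ≤ 2 * l := by
        exact_mod_cast h1
      simp only [Finset.sum_const, card_range, nsmul_eq_mul]
      linarith
    refine (Finset.sum_le_sum this).trans (le_of_eq ?_)
    simp; ring

theorem test (h0 : 0 < lam) (h1 : lam < 1) {t₀ a c G : ℝ} (ht : 1 ≤ t₀) (ha : 0 < a) (hc : 0 < c)
    (hG : 0 ≤ G) {K l : ℕ} (hK : 0 < K) (hl : (2 * l : ℝ) ≤ c ^ 2 * K)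
    (hlo : ∀ k < K, a * c ≤ |chi (bern lam) (t₀ * lam⁻¹ ^ k)|)
    (hup : ∀ k < K, ∀ j, j + l ≤ k →
      |chi (bern lam) (t₀ * lam⁻¹ ^ k - t₀ * lam⁻¹ ^ j)| ≤ G * c ^ 2 ∧
      |chi (bern lam) (t₀ * lam⁻¹ ^ k + t₀ * lam⁻¹ ^ j)| ≤ G * c ^ 2) :
    ∃ A : Set ℝ, MeasurableSet A ∧
      volume.real A ≤ 12 * (1 - lam)⁻¹ ^ 2 / (a ^ 2 * (c ^ 2 * K)) ∧ volume A ≠ ∞ ∧
      a ^ 2 / (4 * (G + 1)) ≤ (bern lam).real A := by
  have := bern_prob h0 h1
  set ν := bern lam with hν
  set R := (1 - lam)⁻¹ with hR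
  set t : ℕ → ℝ := fun k => t₀ * lam⁻¹ ^ k with htd
  set σ : ℕ → ℝ := fun k => SignType.sign (chi ν (t k)) with hσd
  have hσ : ∀ k, |σ k| ≤ 1 := fun k => by
    simp only [hσd]
    rcases SignType.trichotomy (SignType.sign (chi ν (t k))) with h | h | h <;> simp [h]
  set F := FF σ t K with hF
  have hKp : (0 : ℝ) < K := Nat.cast_pos.2 hK
  set E : ℝ := a * c * K with hE
  have hEp : 0 < E := by positivity
  have hmean : E ≤ ∫ y, F y ∂ν := by
    simp only [hF, FF]
    rw [integral_finset_sum _ fun k _ => (int_cos ν (t k)).const_mul _]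
    calc E = ∑ k ∈ range K, a * c := by simp [hE]; ring
      _ ≤ _ := Finset.sum_le_sum fun k hk => by
        rw [integral_const_mul]
        exact (hlo k (mem_range.1 hk)).trans (le_of_eq (sign_mul_self _).symm)
  have hQ : ∫ y, F y ^ 2 ∂ν ≤ (G + 1) * c ^ 2 * K ^ 2 := by
    refine (nu_bound ν σ t hσ K l (by positivity) hup).trans ?_
    nlinarith [mul_le_mul_of_nonneg_right hl hKp.le]
  have hL := leb_bound h0 h1 ht σ hσ K
  set A : Set ℝ := {y | E / 2 ≤ F y} ∩ Set.Icc (-R) R with hA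
  have hm1 : MeasurableSet {y | E / 2 ≤ F y} :=
    measurableSet_le measurable_const (FF_cont σ t K).measurable
  have hAm : MeasurableSet A := hm1.inter measurableSet_Icc
  refine ⟨A, hAm, ?_, ne_top_of_le_ne_top (by simp) (measure_mono Set.inter_subset_right), ?_⟩
  · have h2 := mul_meas_ge_le_integral_of_nonneg (μ := volume.restrict (Set.Icc (-R) R))
      (f := fun y => F y ^ 2) (ae_of_all _ fun y => sq_nonneg _) (FF_sq_int _ σ t K) ((E / 2) ^ 2)
    have h3 : volume.real A ≤ (volume.restrict (Set.Icc (-R) R)).real {y | (E / 2) ^ 2 ≤ F y ^ 2} := by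
      rw [hA, ← measureReal_restrict_apply hm1]
      refine measureReal_mono fun y (hy : E / 2 ≤ F y) => ?_
      show (E / 2) ^ 2 ≤ F y ^ 2
      gcongr
    rw [le_div_iff₀ (by positivity)]
    have h4 : (E / 2) ^ 2 * volume.real A ≤ 3 * R ^ 2 * K :=
      le_trans (by gcongr) (h2.trans hL)
    have h5 : (E / 2) ^ 2 = a ^ 2 * (c ^ 2 * K) * K / 4 := by rw [hE]; ring
    rw [h5] at h4
    refine le_of_mul_le_mul_right ?_ hKp
    linarith
  · set s : ℝ := (G + 1) / a ^ 2 * E with hs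
    have hsp : 0 < s := by positivity
    have hae : ∀ᵐ y ∂ν, y ∈ Set.Icc (-R) R :=
      (ae_map_iff (μ := PP) (meas_Y h0 h1).aemeasurable measurableSet_Icc).2
        (ae_of_all _ fun ε => abs_le.1 (abs_Y h0 h1 ε))
    have hi : Integrable (A.indicator fun _ => s) ν := (integrable_const s).indicator hAm
    have h2 : ∫ y, F y ∂ν ≤ ∫ y, (E / 2 + A.indicator (fun _ => s) y + F y ^ 2 / (4 * s)) ∂ν := by
      refine integral_mono_ae (FF_int ν σ t K)
        (((integrable_const _).add hi).add ((FF_sq_int ν σ t K).div_const _)) ?_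
      filter_upwards [hae] with y hy
      have hq : 0 ≤ F y ^ 2 / (4 * s) := by positivity
      by_cases h : E / 2 ≤ F y
      · rw [Set.indicator_of_mem (show y ∈ A from ⟨h, hy⟩)]
        have : F y - s ≤ F y ^ 2 / (4 * s) := by
          rw [le_div_iff₀ (by positivity)]; nlinarith [sq_nonneg (F y - 2 * s)]
        linarith
      · rw [Set.indicator_of_notMem fun h' : y ∈ A => h h'.1]
        linarith [not_le.1 h]
    have hi2 : Integrable (fun y => E / 2 + A.indicator (fun _ => s) y) ν :=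
      (integrable_const _).add hi
    have hi3 : Integrable (fun y => F y ^ 2 / (4 * s)) ν := (FF_sq_int ν σ t K).div_const _
    rw [integral_add hi2 hi3,
      integral_add (integrable_const _) hi, integral_indicator_const _ hAm,
      integral_div (4 * s)] at h2
    simp only [integral_const, probReal_univ, smul_eq_mul, one_mul] at h2
    have h3 : (∫ y, F y ^ 2 ∂ν) / (4 * s) ≤ E / 4 := by
      rw [div_le_iff₀ (by positivity)]
      refine hQ.trans (le_of_eq ?_)
      rw [hs, hE]; field_simp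
    have h4 : E / 4 ≤ ν.real A * s := by linarith
    rw [div_le_iff₀ (by positivity)]
    rw [hs] at h4
    have h5 : ν.real A * ((G + 1) / a ^ 2 * E) = ν.real A * (4 * (G + 1)) * (E / (4 * a ^ 2)) := by
      field_simp
    have h6 : E / 4 = a ^ 2 * (E / (4 * a ^ 2)) := by field_simp
    rw [h5, h6] at h4
    exact le_of_mul_le_mul_right h4 (by positivity)

end Vale.Agent.P105
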