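import Vale.Agent.P105.Cos
import Vale.Agent.P105.Test

open Real Finset

namespace Vale.Agent.P105

noncomputable def vv (lam u : ℝ) (i : ℤ) : ℝ := u * lam ^ (-i)

noncomputable def al (ϑ : ℝ) (i : ℤ) : ℂ := Complex.exp (Complex.I * (2 * π * (i * ϑ) : ℝ))

noncomputable def ff (lam u : ℝ) (i : ℤ) : ℝ := |cos (π * vv lam u i)|

noncomputable def PR (lam u : ℝ) (k : ℕ) : ℝ := ∏ i ∈ range k, ff lam u i

structure St (lam ϑ u σ : ℝ) (z : ℂ) (T : ℕ) : Prop where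
  tr : ∀ i : ℤ, ∃ n : ℤ, vv lam u i + σ * vv lam u (2 * T - i) + 2 * (z * al ϑ i).re = n
  sg : |σ| = 1
  u0 : 0 < u
  u1 : u ≤ (1 - lam) / 8
  u2 : 1 ≤ vv lam u (2 * T)

variable {lam ϑ u σ δ η : ℝ} {z : ℂ} {T : ℕ}

theorem ff_nonneg (i : ℤ) : 0 ≤ ff lam u i := abs_nonneg _

theorem PR_nonneg (k : ℕ) : 0 ≤ PR lam u k := Finset.prod_nonneg fun _ _ => ff_nonneg _

theorem vv_pos (h0 : 0 < lam) (hu : 0 < u) (i : ℤ) : 0 < vv lam u i :=
  mul_pos hu (zpow_pos h0 _)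

theorem vv_le (h0 : 0 < lam) (h1 : lam < 1) (hu : 0 < u) {i : ℤ} {j : ℕ} (h : i ≤ -j) :
    vv lam u i ≤ u * lam ^ j := by
  rw [vv, ← zpow_natCast]
  exact mul_le_mul_of_nonneg_left (zpow_le_zpow_right_of_le_one₀ h0 h1.le (by omega)) hu.le

theorem vv_mul (h0 : 0 < lam) (i : ℤ) (n : ℕ) : vv lam u i * lam ^ n = vv lam u (i - n) := by
  rw [vv, vv, mul_assoc, ← zpow_natCast, ← zpow_add₀ h0.ne']
  congr 2; ring

theorem vv_step (h0 : 0 < lam) (i : ℤ) (m : ℕ) :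
    vv lam (u * (1 - lam ^ m)) i = vv lam u i - vv lam u (i - m) := by
  rw [← vv_mul h0, vv, vv]; ring

theorem geoR (h0 : 0 < lam) (h1 : lam < 1) (hu : 0 < u) (hu1 : u ≤ (1 - lam) / 8) (k : ℕ) :
    ∑ n ∈ range k, u * lam ^ n ≤ 1 / 8 := by
  rw [← Finset.mul_sum]
  have hl : 0 < 1 - lam := by linarith
  calc u * ∑ n ∈ range k, lam ^ n ≤ (1 - lam) / 8 * (1 - lam)⁻¹ :=
        mul_le_mul hu1 (geo_le h0 h1 k) (by positivity) (by positivity)
    _ = 1 / 8 := by field_simp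

theorem geoL (h0 : 0 < lam) (h1 : lam < 1) (hu : 0 < u) (hu1 : u ≤ (1 - lam) / 8) (k : ℕ) :
    ∑ n ∈ range k, u * lam ^ (k - 1 - n) ≤ 1 / 8 := by
  rw [Finset.sum_range_reflect (fun n => u * lam ^ n)]
  exact geoR h0 h1 hu hu1 k

theorem PR_refl (k : ℕ) : PR lam u k = ∏ n ∈ range k, ff lam u ((k : ℤ) - 1 - n) := by
  rw [PR, ← Finset.prod_range_reflect]
  refine Finset.prod_congr rfl fun n hn => ?_
  congr 1
  have := mem_range.1 hn
  omega

theorem PR_add (a k : ℕ) :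
    PR lam u (a + k) = PR lam u a * ∏ j ∈ range k, ff lam u (a + j : ℕ) :=
  Finset.prod_range_add _ _ _

theorem norm_al (i : ℤ) : ‖al ϑ i‖ = 1 := Complex.norm_exp_I_mul_ofReal _

theorem al_add (i j : ℤ) : al ϑ (i + j) = al ϑ i * al ϑ j := by
  rw [al, al, al, ← Complex.exp_add]
  congr 1; push_cast; ring

theorem al_near (q : ℕ) (p : ℤ) : ‖1 - al ϑ (-(4 * q : ℕ))‖ ≤ 26 * |q * ϑ - p| := by
  have h : al ϑ (-(4 * q : ℕ)) = Complex.exp (Complex.I * (-(8 * π) * (q * ϑ - p) : ℝ)) := by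
    rw [al, Complex.exp_eq_exp_iff_exists_int]
    exact ⟨-(4 * p), by push_cast; ring⟩
  rw [h, norm_sub_rev]
  refine (Real.norm_exp_I_mul_ofReal_sub_one_le).trans ?_
  rw [Real.norm_eq_abs, abs_mul, abs_neg, abs_of_pos (by positivity)]
  gcongr
  linarith [pi_lt_d2]

theorem St.near (S : St lam ϑ u σ z T) (hz : ‖z‖ ≤ δ) (i : ℤ) :
    ∃ n : ℤ, |vv lam u i - (-σ) * vv lam u (2 * T - i) - n| ≤ 2 * δ := by
  obtain ⟨n, hn⟩ := S.tr i
  refine ⟨n, ?_⟩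
  have h1 : |(z * al ϑ i).re| ≤ δ := by
    refine (Complex.abs_re_le_norm _).trans ?_
    rwa [norm_mul, norm_al, mul_one]
  rw [← hn, abs_le] at *
  constructor <;> linarith [h1.1, h1.2]

theorem St.near' (S : St lam ϑ u σ z T) (h0 : 0 < lam) (hz : ‖z‖ ≤ δ) (i : ℤ) :
    ∃ n : ℤ, |vv lam u i - n| ≤ vv lam u (2 * T - i) + 2 * δ := by
  obtain ⟨n, hn⟩ := S.near hz i
  refine ⟨n, ?_⟩
  have h1 : |σ * vv lam u (2 * T - i)| = vv lam u (2 * T - i) := by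
    rw [abs_mul, S.sg, one_mul, abs_of_pos (vv_pos h0 S.u0 _)]
  have h2 := abs_sub (vv lam u i - (-σ) * vv lam u (2 * T - i) - n) (σ * vv lam u (2 * T - i))
  rw [h1] at h2
  refine le_trans (le_of_eq ?_) (h2.trans (by linarith))
  congr 1; ring

theorem St.pow_le (S : St lam ϑ u σ z T) (h0 : 0 < lam) : lam ^ (2 * T) ≤ 1 / 8 := by
  have h1 := vv_mul (u := u) h0 (2 * T) (2 * T)
  have h2 : vv lam u (2 * T - (2 * T : ℕ)) = u := by simp [vv]
  have h3 := S.u2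
  have h4 := S.u1
  nlinarith [pow_pos h0 (2 * T)]

theorem St.step (S : St lam ϑ u σ z T) (h0 : 0 < lam) (h1 : lam < 1) {q : ℕ} (hq : T ≤ q) :
    St lam ϑ (u * (1 - lam ^ (4 * q))) (-σ) (z * (1 - al ϑ (-(4 * q : ℕ)))) (T + 2 * q) := by
  have hp : lam ^ (4 * q) ≤ 1 / 8 :=
    (pow_le_pow_of_le_one h0.le h1.le (by omega)).trans (S.pow_le h0)
  have hp0 := pow_pos h0 (4 * q)
  have hu := S.u0
  refine ⟨fun i => ?_, by rw [abs_neg, S.sg], mul_pos hu (by linarith),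
    le_trans (by nlinarith) S.u1, ?_⟩
  · obtain ⟨a, ha⟩ := S.tr i
    obtain ⟨b, hb⟩ := S.tr (i - (4 * q : ℕ))
    refine ⟨a - b, ?_⟩
    rw [vv_step h0, vv_step h0, Int.cast_sub, ← ha, ← hb, sub_eq_add_neg i, al_add]
    have e1 : 2 * ((T + 2 * q : ℕ) : ℤ) - i = 2 * T - (i + -((4 * q : ℕ) : ℤ)) := by
      push_cast; ring
    have e2 : 2 * (T : ℤ) - (i + -((4 * q : ℕ) : ℤ)) - (4 * q : ℕ) = 2 * T - i := by ring
    rw [e1, e2]
    simp only [mul_sub, sub_mul, mul_one, Complex.sub_re, mul_assoc, mul_comm (al ϑ i)]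
    ring
  · have e := vv_mul (u := u) h0 (2 * ((T + 2 * q : ℕ) : ℤ)) (4 * q)
    have e1 : 2 * ((T + 2 * q : ℕ) : ℤ) - (4 * q : ℕ) = 2 * T := by push_cast; ring
    rw [vv_step h0, e1]
    rw [e1] at e
    nlinarith [S.u2, vv_pos h0 hu (2 * ((T + 2 * q : ℕ) : ℤ))]

theorem St.cos_step (S : St lam ϑ u σ z T) (h0 : 0 < lam) (h1 : lam < 1) {q : ℕ} (hq : T ≤ q)
    (hη : ∀ i, η ≤ ff lam u i) (hz : ‖z * (1 - al ϑ (-(4 * q : ℕ)))‖ ≤ δ) (i : ℤ) :
    η - 4 * lam ^ q - 8 * δ ≤ ff lam (u * (1 - lam ^ (4 * q))) i := by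
  have hδ : 0 ≤ δ := (norm_nonneg _).trans hz
  have left : ∀ i : ℤ, i ≤ T + 2 * q → η - 4 * lam ^ q ≤ ff lam (u * (1 - lam ^ (4 * q))) i := by
    intro i hi
    have h2 : |vv lam (u * (1 - lam ^ (4 * q))) i - 1 * vv lam u i - (0 : ℤ)| ≤ lam ^ q := by
      rw [vv_step h0, Int.cast_zero, sub_zero, one_mul, sub_sub_cancel_left, abs_neg,
        abs_of_pos (vv_pos h0 S.u0 _)]
      refine (vv_le (j := q) h0 h1 S.u0 (by push_cast; omega)).trans ?_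
      nlinarith [S.u1, pow_pos h0 q]
    have h3 := hη i
    simp only [ff] at *
    linarith [(cosL abs_one h2).2]
  rcases le_or_gt i (T + 2 * q) with h | h
  · linarith [left i h]
  · obtain ⟨n, hn⟩ := (S.step h0 h1 hq).near hz i
    have h2 := (cosL (by rw [neg_neg, S.sg]) hn).2
    have h3 := left (2 * ((T + 2 * q : ℕ) : ℤ) - i) (by push_cast; omega)
    simp only [ff] at *
    linarith

theorem St.ext (S : St lam ϑ u σ z T) (h0 : 0 < lam) (h1 : lam < 1) (hz : ‖z‖ ≤ δ) (hη0 : 0 < η)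
    (hη : ∀ i, η ≤ ff lam u i) (k : ℕ) :
    PR lam u (2 * T + 1) ≤ PR lam u (2 * T + 1 + k) * exp ((2 + 40 * (k * δ ^ 2)) / η) := by
  have hδ : 0 ≤ δ := (norm_nonneg _).trans hz
  have h := prod_exp k (fun _ => 1) (fun j => ff lam u (2 * T + 1 + j : ℕ))
    (fun j => (10 * (u * lam ^ j) + 40 * δ ^ 2) / η) (E := (2 + 40 * (k * δ ^ 2)) / η)
    (fun _ => zero_le_one) (fun _ => ff_nonneg _) (fun j _ => ?_) ?_
  · rw [PR_add (2 * T + 1) k, mul_assoc]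
    rw [Finset.prod_const_one] at h
    exact le_mul_of_one_le_right (PR_nonneg _) h
  · have hp : 0 < u * lam ^ j := mul_pos S.u0 (pow_pos h0 j)
    refine le_exp hη0 (hη _) (by positivity) ?_
    obtain ⟨n, hn⟩ := S.near' h0 hz (2 * T + 1 + j : ℕ)
    have h2 := vv_le (i := 2 * T - (2 * T + 1 + j : ℕ)) (j := j) h0 h1 S.u0 (by push_cast; omega)
    have h3 := cosQ (hn.trans (add_le_add_left h2 _))
    have h4 : u * lam ^ j ≤ 1 := by
      nlinarith [S.u1, S.u0, pow_le_one₀ (n := j) h0.le h1.le]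
    simp only [ff]
    nlinarith [sq_nonneg (u * lam ^ j - 2 * δ)]
  · rw [← Finset.sum_div, Finset.sum_add_distrib, ← Finset.mul_sum]
    simp only [Finset.sum_const, card_range, nsmul_eq_mul]
    exact div_le_div_of_nonneg_right (by linarith [geoR h0 h1 S.u0 S.u1 k]) hη0.le

theorem St.half (S : St lam ϑ u σ z T) (hz : ‖z‖ ≤ δ) (hη0 : 0 < η)
    (hη : ∀ i, η ≤ ff lam u i) (hT : T * δ ≤ 1) :
    PR lam u (T + 1) ^ 2 ≤ PR lam u (2 * T + 1) * exp (8 / η) := by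
  have hδ : 0 ≤ δ := (norm_nonneg _).trans hz
  have h := prod_exp T (fun j => ff lam u (T - 1 - j)) (fun j => ff lam u (T + 1 + j : ℕ))
    (fun _ => 8 * δ / η) (E := 8 / η) (fun _ => ff_nonneg _) (fun _ => ff_nonneg _)
    (fun j _ => ?_) ?_
  · rw [← PR_refl] at h
    have h2 : PR lam u (T + 1) ≤ PR lam u T := by
      rw [PR, Finset.prod_range_succ]
      exact mul_le_of_le_one_right (PR_nonneg _) (abs_cos_le_one _)
    rw [show 2 * T + 1 = T + 1 + T by ring, PR_add (T + 1) T, mul_assoc, sq]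
    exact mul_le_mul_of_nonneg_left (h2.trans h) (PR_nonneg _)
  · refine le_exp hη0 (hη _) (by positivity) ?_
    obtain ⟨n, hn⟩ := S.near hz (T + 1 + j : ℕ)
    have h2 := (cosL (by rw [abs_neg, S.sg]) hn).2
    rw [show 2 * (T : ℤ) - (T + 1 + j : ℕ) = T - 1 - j by push_cast; ring] at h2
    simp only [ff]
    linarith
  · simp only [Finset.sum_const, card_range, nsmul_eq_mul]
    rw [mul_div_assoc']
    gcongr
    linarith

theorem St.prod_step (S : St lam ϑ u σ z T) (h0 : 0 < lam) (h1 : lam < 1) {q : ℕ} (hq : T ≤ q)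
    (hz : ‖z‖ ≤ δ) (hη0 : 0 < η) (hη : ∀ i, η ≤ ff lam u i) (hqδ : q * δ ^ 2 ≤ 4) {δ' : ℝ}
    (hz' : ‖z * (1 - al ϑ (-(4 * q : ℕ)))‖ ≤ δ')
    (hη' : ∀ i, η ≤ ff lam (u * (1 - lam ^ (4 * q))) i) (hT : (T + 2 * q : ℕ) * δ' ≤ 1) :
    PR lam u (2 * T + 1) ^ 2 ≤
      PR lam (u * (1 - lam ^ (4 * q))) (2 * (T + 2 * q) + 1) * exp (700 / η) := by
  have a1 := (S.step h0 h1 hq).half hz' hη0 hη' hT
  have a2 := S.ext h0 h1 hz hη0 hη (2 * q - T)
  rw [show 2 * T + 1 + (2 * q - T) = T + 2 * q + 1 by omega] at a2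
  have a3 : PR lam u (T + 2 * q + 1) ≤
      PR lam (u * (1 - lam ^ (4 * q))) (T + 2 * q + 1) * exp (1 / η) := by
    refine prod_exp _ _ _ (fun j => 4 * (u * lam ^ (T + 2 * q + 1 - 1 - j)) / η)
      (fun _ => ff_nonneg _) (fun _ => ff_nonneg _) (fun j hj => ?_) ?_
    · have hp := mul_pos S.u0 (pow_pos h0 (T + 2 * q + 1 - 1 - j))
      refine le_exp hη0 (hη' _) (by positivity) (cosL (n := 0) abs_one ?_).2
      rw [vv_step h0, Int.cast_zero, sub_zero, one_mul, sub_sub_cancel_left, abs_neg,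
        abs_of_pos (vv_pos h0 S.u0 _)]
      exact vv_le h0 h1 S.u0 (by omega)
    · rw [← Finset.sum_div, ← Finset.mul_sum]
      gcongr
      linarith [geoL h0 h1 S.u0 S.u1 (T + 2 * q + 1)]
  have a4 : exp ((2 + 40 * ((2 * q - T : ℕ) * δ ^ 2)) / η) ≤ exp (322 / η) := by
    have : ((2 * q - T : ℕ) : ℝ) ≤ 2 * q := by exact_mod_cast Nat.sub_le _ _
    gcongr
    nlinarith [sq_nonneg δ]
  have a5 : PR lam u (2 * T + 1) ≤
      PR lam (u * (1 - lam ^ (4 * q))) (T + 2 * q + 1) * exp (1 / η) * exp (322 / η) :=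
    a2.trans (mul_le_mul a3 a4 (exp_pos _).le (mul_nonneg (PR_nonneg _) (exp_pos _).le))
  have a6 := pow_le_pow_left₀ (PR_nonneg _) a5 2
  rw [mul_assoc, mul_pow, ← exp_add, ← exp_nat_mul] at a6
  refine a6.trans ((mul_le_mul_of_nonneg_right a1 (exp_pos _).le).trans ?_)
  rw [mul_assoc, ← exp_add]
  gcongr
  · exact PR_nonneg _
  · rw [← add_div, mul_div_assoc', ← add_div]
    gcongr; norm_num

end Vale.Agent.P105
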